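import Mathlib

namespace Vale.Agent.P199

open Polynomial Finset

section crd
variable {k D ι : Type*} [Field k] [DivisionRing D] [Algebra k D] (b : Module.Basis ι k D)

noncomputable def crd (β : ι) (p : D[X]) : k[X] :=
  ∑ i ∈ range (p.natDegree + 1), monomial i (b.repr (p.coeff i) β)

theorem coeff_crd (β : ι) (p : D[X]) (i : ℕ) : (crd b β p).coeff i = b.repr (p.coeff i) β := by
  unfold crd
  rw [finsetSum_coeff]
  simp only [coeff_monomial]
  rw [sum_ite_eq' (range (p.natDegree + 1)) i]
  split_ifs with h
  · rfl
  · rw [mem_range, not_lt] at h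
    rw [coeff_eq_zero_of_natDegree_lt (by omega)]
    simp

theorem crd_zero (β : ι) : crd b β (0 : D[X]) = 0 := by
  ext i
  rw [coeff_crd]
  simp

theorem crd_add (β : ι) (p q : D[X]) : crd b β (p + q) = crd b β p + crd b β q := by
  ext i
  rw [coeff_add, coeff_crd, coeff_crd, coeff_crd, coeff_add]
  simp

theorem crd_sum {α : Type*} (s : Finset α) (β : ι) (p : α → D[X]) :
    crd b β (∑ j ∈ s, p j) = ∑ j ∈ s, crd b β (p j) := by
  classical
  induction s using Finset.induction_on with
  | empty => simp [crd_zero]
  | insert a s ha ih => rw [sum_insert ha, sum_insert ha, crd_add, ih]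

theorem crd_mul (β : ι) (g : k[X]) (p : D[X]) :
    crd b β (g.map (algebraMap k D) * p) = g * crd b β p := by
  ext i
  rw [coeff_crd, coeff_mul, coeff_mul, map_sum, Finsupp.finsetSum_apply]
  apply sum_congr rfl
  intro x _
  rw [coeff_map, coeff_crd, ← Algebra.smul_def, map_smul, Finsupp.smul_apply, smul_eq_mul]

theorem eq_zero_of_crd (p : D[X]) (h : ∀ β, crd b β p = 0) : p = 0 := by
  ext i
  apply b.repr.injective
  ext β
  have := congrArg (fun q => q.coeff i) (h β)
  simp only [coeff_crd, coeff_zero] at this
  rw [this]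
  simp

/-- evaluation at a central scalar -/
noncomputable def ev (c : k) : D[X] →+* D :=
  eval₂RingHom' (RingHom.id D) (algebraMap k D c) (fun a => (Algebra.commutes c a).symm)

theorem ev_eq (c : k) (p : D[X]) :
    ev c p = ∑ i ∈ range (p.natDegree + 1), c ^ i • p.coeff i := by
  change eval₂ (RingHom.id D) (algebraMap k D c) p = _
  rw [eval₂_eq_sum_range]
  apply sum_congr rfl
  intro i _
  rw [RingHom.id_apply, ← map_pow, ← Algebra.commutes, Algebra.smul_def]

theorem eval_crd (β : ι) (p : D[X]) (c : k) : (crd b β p).eval c = b.repr (ev c p) β := by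
  rw [ev_eq, map_sum, Finsupp.finsetSum_apply]
  unfold crd
  rw [eval_finsetSum]
  apply sum_congr rfl
  intro i _
  rw [eval_monomial, map_smul, Finsupp.smul_apply, smul_eq_mul, mul_comm]

end crd

/-- rows that are dependent at infinitely many points are dependent over `k[X]` -/
theorem dependent_of_infinite {k : Type*} [Field k] {r s : Type*} [Fintype r] [Fintype s]
    [DecidableEq r] [DecidableEq s]
    (M : Matrix r s k[X])
    (hinf : {c : k | ∃ v : r → k, v ≠ 0 ∧ ∀ β, ∑ j, v j * (M j β).eval c = 0}.Infinite) :
    ∃ g : r → k[X], g ≠ 0 ∧ ∀ β, ∑ j, g j * M j β = 0 := by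
  classical
  set K := FractionRing k[X] with hK
  set MK : Matrix r s K := M.map (algebraMap k[X] K) with hMK
  by_cases hli : LinearIndependent K MK.row
  · exfalso
    have hrank : MK.rank = Fintype.card r := hli.rank_matrix
    have hsurj : Function.Surjective MK.mulVec := by
      have h1 : LinearMap.range MK.mulVecLin = ⊤ := by
        apply Submodule.eq_top_of_finrank_eq
        rw [Module.finrank_fintype_fun_eq_card]
        exact hrank
      intro y
      have h2 : y ∈ LinearMap.range MK.mulVecLin := by rw [h1]; trivial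
      obtain ⟨x, hx⟩ := h2
      exact ⟨x, hx⟩
    obtain ⟨N, hN⟩ := Matrix.mulVec_surjective_iff_exists_right_inverse.mp hsurj
    obtain ⟨δ, hδ⟩ := IsLocalization.exist_integer_multiples_of_finite (nonZeroDivisors k[X])
      (fun x : s × r => N x.1 x.2)
    choose N' hN' using hδ
    have hδ0 : (δ : k[X]) ≠ 0 := nonZeroDivisors.coe_ne_zero δ
    -- M * N' = δ
    have hMN : ∀ i j, ∑ β, M i β * N' (β, j) = if i = j then (δ : k[X]) else 0 := by
      intro i j
      apply IsFractionRing.injective k[X] K
      rw [map_sum]
      have h1 : ∀ β ∈ (univ : Finset s), algebraMap k[X] K (M i β * N' (β, j)) =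
          algebraMap k[X] K δ * (MK i β * N β j) := by
        intro β _
        rw [map_mul, hN' (β, j), Algebra.smul_def, hMK, Matrix.map_apply]
        ring
      rw [sum_congr rfl h1, ← mul_sum]
      have h2 : ∑ β, MK i β * N β j = (MK * N) i j := rfl
      rw [h2, hN, Matrix.one_apply]
      split_ifs <;> simp
    apply hinf
    apply Set.Finite.subset (Polynomial.rootSet_finite (δ : k[X]) k)
    rintro c ⟨v, hv0, hv⟩
    rw [mem_rootSet]
    refine ⟨hδ0, ?_⟩
    by_contra hne
    apply hv0
    funext j
    have h1 : ∑ β, (∑ i, v i * (M i β).eval c) * (N' (β, j)).eval c = 0 := by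
      apply sum_eq_zero
      intro β _
      rw [hv β, zero_mul]
    have h2 : ∑ β, (∑ i, v i * (M i β).eval c) * (N' (β, j)).eval c =
        ∑ i, v i * (∑ β, M i β * N' (β, j)).eval c := by
      simp_rw [sum_mul, eval_finsetSum, mul_sum, eval_mul]
      rw [sum_comm]
      apply sum_congr rfl; intro i _
      apply sum_congr rfl; intro β _
      ring
    rw [h2] at h1
    simp_rw [hMN] at h1
    have h3 : ∀ i ∈ (univ : Finset r), v i * (if i = j then (δ : k[X]) else 0).eval c =
        if i = j then v j * (δ : k[X]).eval c else 0 := by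
      intro i _
      split_ifs with h
      · rw [h]
      · simp
    rw [sum_congr rfl h3, sum_ite_eq' univ j, if_pos (mem_univ j)] at h1
    rw [coe_aeval_eq_eval] at hne
    rcases mul_eq_zero.mp h1 with h | h
    · exact h
    · exact absurd h hne
  · rw [Fintype.not_linearIndependent_iff] at hli
    obtain ⟨g, hg, i₀, hi₀⟩ := hli
    obtain ⟨δ, hδ⟩ := IsLocalization.exist_integer_multiples_of_finite (nonZeroDivisors k[X]) g
    choose g' hg' using hδ
    have hδ0 : (δ : k[X]) ≠ 0 := nonZeroDivisors.coe_ne_zero δ
    refine ⟨g', ?_, ?_⟩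
    · intro h
      have h1 := hg' i₀
      rw [h] at h1
      simp only [Pi.zero_apply, map_zero] at h1
      rw [Algebra.smul_def] at h1
      rcases mul_eq_zero.mp h1.symm with h2 | h2
      · apply hδ0
        exact IsFractionRing.injective k[X] K (by rw [h2, map_zero])
      · exact hi₀ h2
    · intro β
      apply IsFractionRing.injective k[X] K
      rw [map_sum, map_zero]
      have h1 : ∀ j ∈ (univ : Finset r), algebraMap k[X] K (g' j * M j β) =
          algebraMap k[X] K δ * (g j * MK j β) := by
        intro j _
        rw [map_mul, hg' j, Algebra.smul_def, hMK, Matrix.map_apply]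
        ring
      rw [sum_congr rfl h1, ← mul_sum]
      have h2 := congrFun hg β
      rw [Finset.sum_apply] at h2
      simp only [Pi.smul_apply, smul_eq_mul, Matrix.row, Pi.zero_apply] at h2
      rw [h2, mul_zero]

end Vale.Agent.P199
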