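import Mathlib

namespace Vale.Agent.P199

open TensorProduct

section
variable {F D K : Type*} [Field F] [DivisionRing D] [Algebra F D] [Field K] [Algebra F K]

theorem basis_repr_mul {ι : Type*} (b : Module.Basis ι F K) (x : D ⊗[F] K) (d : D) (i : ι) :
    (Algebra.TensorProduct.basis D b).repr (x * (d ⊗ₜ[F] (1 : K))) i =
      (Algebra.TensorProduct.basis D b).repr x i * d := by
  induction x using TensorProduct.induction_on with
  | zero => simp
  | tmul a c =>
    rw [Algebra.TensorProduct.tmul_mul_tmul, mul_one]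
    simp only [Algebra.TensorProduct.basis_repr_tmul, Finsupp.smul_apply,
      Finsupp.mapRange_apply, smul_eq_mul]
    rw [mul_assoc, mul_assoc, ← Algebra.commutes]
  | add x y hx hy =>
    rw [add_mul, map_add, map_add, Finsupp.add_apply, Finsupp.add_apply, hx, hy, add_mul]

theorem basis_repr_mul' {ι : Type*} (b : Module.Basis ι F K) (x : D ⊗[F] K) (d : D) (i : ι) :
    (Algebra.TensorProduct.basis D b).repr ((d ⊗ₜ[F] (1 : K)) * x) i =
      d * (Algebra.TensorProduct.basis D b).repr x i := by
  have : (d ⊗ₜ[F] (1 : K)) * x = d • x := by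
    have h1 : d ⊗ₜ[F] (1 : K) = d • (1 : D ⊗[F] K) := by
      rw [Algebra.TensorProduct.one_def, TensorProduct.smul_tmul', smul_eq_mul, mul_one]
    rw [h1, smul_mul_assoc, one_mul]
  rw [this, map_smul]
  rfl

theorem tensor_simple [Algebra.IsCentral F D] [FiniteDimensional F K] :
    IsSimpleRing (D ⊗[F] K) := by
  classical
  set b := Module.finBasis F K with hb
  set B := Algebra.TensorProduct.basis D b with hB
  apply IsSimpleRing.of_eq_bot_or_eq_top
  intro I
  by_cases hI : I = ⊥
  · left; exact hI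
  right
  -- a nonzero element
  have hex : ∃ x : D ⊗[F] K, x ∈ I ∧ x ≠ 0 := by
    by_contra hcon
    push Not at hcon
    apply hI
    rw [eq_bot_iff]
    intro x hx
    rw [TwoSidedIdeal.mem_bot]
    exact hcon x hx
  have hex2 : ∃ n : ℕ, ∃ x : D ⊗[F] K, x ∈ I ∧ x ≠ 0 ∧ (B.repr x).support.card = n := by
    obtain ⟨x, h1, h2⟩ := hex
    exact ⟨_, x, h1, h2, rfl⟩
  obtain ⟨x, hx1, hx2, hx3⟩ := Nat.find_spec hex2
  have hmin : ∀ y : D ⊗[F] K, y ∈ I → (B.repr y).support.card < (B.repr x).support.card → y = 0 := by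
    intro y hy hlt
    by_contra hy0
    rw [hx3] at hlt
    exact Nat.find_min hex2 hlt ⟨y, hy, hy0, rfl⟩
  -- pick i₀ in support
  have hsupp : (B.repr x).support.Nonempty := by
    rw [Finsupp.support_nonempty_iff]
    intro h
    apply hx2
    exact B.repr.map_eq_zero_iff.mp h
  obtain ⟨i₀, hi₀⟩ := hsupp
  rw [Finsupp.mem_support_iff] at hi₀
  set c := (B.repr x i₀)⁻¹ with hc
  set y := (c ⊗ₜ[F] (1 : K)) * x with hy
  have hyI : y ∈ I := I.mul_mem_left _ _ hx1
  have hyrepr : ∀ i, B.repr y i = c * B.repr x i := fun i => basis_repr_mul' b x c i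
  have hyi₀ : B.repr y i₀ = 1 := by rw [hyrepr, hc, inv_mul_cancel₀ hi₀]
  have hcomm : ∀ (d : D) i, d * B.repr y i = B.repr y i * d := by
    intro d i
    have h0 : (d ⊗ₜ[F] (1 : K)) * y - y * (d ⊗ₜ[F] (1 : K)) = 0 := by
      apply hmin
      · exact I.sub_mem (I.mul_mem_left _ _ hyI) (I.mul_mem_right _ _ hyI)
      · apply Finset.card_lt_card
        rw [Finset.ssubset_iff_of_subset]
        · refine ⟨i₀, Finsupp.mem_support_iff.mpr hi₀, ?_⟩
          rw [Finsupp.notMem_support_iff, map_sub, Finsupp.sub_apply, basis_repr_mul',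
            basis_repr_mul, ← hB, hyi₀, mul_one, one_mul, sub_self]
        · intro j hj
          rw [Finsupp.mem_support_iff] at hj ⊢
          intro hj0
          apply hj
          rw [map_sub, Finsupp.sub_apply, basis_repr_mul', basis_repr_mul, ← hB, hyrepr, hj0]
          simp
    have h1 := congrArg (fun z => B.repr z i) h0
    simp only [map_sub, Finsupp.sub_apply, map_zero, Finsupp.coe_zero, Pi.zero_apply] at h1
    rw [basis_repr_mul', basis_repr_mul, ← hB] at h1
    exact sub_eq_zero.mp h1
  have hcen : ∀ i, ∃ f : F, algebraMap F D f = B.repr y i := by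
    intro i
    have h1 : B.repr y i ∈ Subalgebra.center F D := by
      rw [Subalgebra.mem_center_iff]
      intro d
      exact hcomm d i
    have h2 := Algebra.IsCentral.out (K := F) (D := D) h1
    exact Algebra.mem_bot.mp h2
  choose f hf using hcen
  -- y = 1 ⊗ k
  have hyk : y = (1 : D) ⊗ₜ[F] (∑ i, f i • b i) := by
    rw [← B.sum_repr y, TensorProduct.tmul_sum]
    apply Finset.sum_congr rfl
    intro i _
    rw [← hf i, hB, Algebra.TensorProduct.basis_apply, algebraMap_smul, TensorProduct.tmul_smul]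
  set k := ∑ i, f i • b i with hk
  have hk0 : k ≠ 0 := by
    intro h0
    rw [h0, TensorProduct.tmul_zero] at hyk
    rw [hyk, map_zero] at hyi₀
    simp at hyi₀
  have h1 : (1 : D ⊗[F] K) ∈ I := by
    have h2 : ((1 : D) ⊗ₜ[F] k⁻¹) * y = 1 := by
      rw [hyk, Algebra.TensorProduct.tmul_mul_tmul, one_mul, inv_mul_cancel₀ hk0]
      rfl
    rw [← h2]
    exact I.mul_mem_left _ _ hyI
  rw [eq_top_iff]
  intro z _
  have := I.mul_mem_left z 1 h1
  rwa [mul_one] at this

theorem tensor_artinian [FiniteDimensional F K] : IsArtinianRing (D ⊗[F] K) := by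
  have : Module.Finite D (D ⊗[F] K) := inferInstance
  have h1 : IsArtinian D (D ⊗[F] K) := inferInstance
  exact isArtinian_of_tower D h1

end

end Vale.Agent.P199
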