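import Mathlib
import Vale.Agent.P199.TensorSimple

namespace Vale.Agent.P199

open TensorProduct

universe w

attribute [local instance] TensorProduct.Algebra.module

section
variable (F D K : Type*) [Field F] [DivisionRing D] [Algebra F D] [Field K] [Algebra F K]

theorem exists_simple_type [Algebra.IsCentral F D] [FiniteDimensional F K] :
    ∃ S₀ : Ideal (D ⊗[F] K), IsSimpleModule (D ⊗[F] K) S₀ ∧
      ∀ (M : Type w) [AddCommGroup M] [Module (D ⊗[F] K) M],
        IsIsotypicOfType (D ⊗[F] K) M S₀ := by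
  have : IsSimpleRing (D ⊗[F] K) := tensor_simple
  have : IsArtinianRing (D ⊗[F] K) := tensor_artinian
  have ⟨S₀, hS₀⟩ := IsAtomic.exists_atom (Submodule (D ⊗[F] K) (D ⊗[F] K))
  rw [← isSimpleModule_iff_isAtom] at hS₀
  refine ⟨S₀, hS₀, ?_⟩
  intro M _ _ m hm
  obtain ⟨I, ⟨e⟩⟩ := IsSemisimpleRing.exists_linearEquiv_ideal_of_isSimpleModule (D ⊗[F] K) m
  have : IsSimpleModule (D ⊗[F] K) I := IsSimpleModule.congr e.symm
  obtain ⟨e2⟩ := IsSimpleRing.isIsotypic (D ⊗[F] K) (D ⊗[F] K) S₀ I
  exact ⟨e.trans e2⟩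

end

section
variable {F D K : Type*} [Field F] [DivisionRing D] [Algebra F D] [Field K] [Algebra F K]
variable (M : Type*) [AddCommGroup M] [Module D M] [Module K M] [Module F M]
  [IsScalarTower F D M] [IsScalarTower F K M] [SMulCommClass D K M]

theorem tower_bimod : IsScalarTower D (D ⊗[F] K) M where
  smul_assoc d r m := by
    induction r using TensorProduct.induction_on with
    | zero => simp
    | tmul a c =>
      rw [TensorProduct.smul_tmul', TensorProduct.Algebra.smul_def, TensorProduct.Algebra.smul_def,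
        smul_assoc]
    | add x y hx hy => rw [smul_add, add_smul, add_smul, hx, hy, smul_add]

end

section
variable (F D K : Type*) [Field F] [DivisionRing D] [Algebra F D] [Field K] [Algebra F K]

theorem exists_dim [Algebra.IsCentral F D] [FiniteDimensional F K] :
    ∃ S₀ : Ideal (D ⊗[F] K), 0 < Module.finrank D S₀ ∧
      ∀ (M : Type w) [AddCommGroup M] [Module D M] [Module K M] [Module F M]
        [IsScalarTower F D M] [IsScalarTower F K M] [SMulCommClass D K M] [Module.Finite D M],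
        ∃ m : ℕ, Module.finrank D M = m * Module.finrank D S₀ ∧
          Nonempty (M ≃ₗ[D ⊗[F] K] (Fin m → S₀)) := by
  have : IsSimpleRing (D ⊗[F] K) := tensor_simple
  have : IsArtinianRing (D ⊗[F] K) := tensor_artinian
  obtain ⟨S₀, hS₀, hiso⟩ := exists_simple_type.{w} F D K
  have : Module.Finite D (D ⊗[F] K) := inferInstance
  have : IsNoetherian D (D ⊗[F] K) := inferInstance
  have hfin : Module.Finite D S₀ :=
    Module.Finite.of_injective ((S₀.subtype).restrictScalars D) Subtype.val_injective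
  have : Nontrivial S₀ := IsSimpleModule.nontrivial (D ⊗[F] K) S₀
  refine ⟨S₀, Module.finrank_pos, ?_⟩
  intro M _ _ _ _ _ _ _ _
  have := tower_bimod (F := F) (D := D) (K := K) M
  have : Module.Finite (D ⊗[F] K) M := Module.Finite.of_restrictScalars_finite D _ _
  obtain ⟨m, ⟨e⟩⟩ := (hiso M).linearEquiv_fun
  refine ⟨m, ?_, ⟨e⟩⟩
  rw [LinearEquiv.finrank_eq (e.restrictScalars D), Module.finrank_pi_fintype]
  simp

theorem exists_dim' [Algebra.IsCentral F D] [FiniteDimensional F K] :
    ∃ S₀ : Ideal (D ⊗[F] K), 0 < Module.finrank D S₀ ∧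
      ∀ (n : ℕ) (φ : K →ₐ[F] Module.End D (Fin n → D)),
        ∃ m : ℕ, n = m * Module.finrank D S₀ ∧
          ∃ e : (Fin n → D) ≃ₗ[D] (Fin m → S₀), ∀ (c : K) (x : Fin n → D),
            e (φ c x) = ((1 : D) ⊗ₜ[F] c) • e x := by
  obtain ⟨S₀, h0, hS⟩ := exists_dim F D K
  refine ⟨S₀, h0, ?_⟩
  intro n φ
  let _ : Module K (Fin n → D) := Module.compHom (Fin n → D) φ.toRingHom
  have hsm : ∀ (c : K) (x : Fin n → D), c • x = φ c x := fun _ _ => rfl
  have : IsScalarTower F K (Fin n → D) := ⟨fun f c x => by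
    rw [hsm, hsm, map_smul]; rfl⟩
  have : SMulCommClass D K (Fin n → D) := ⟨fun d c x => by
    rw [hsm, hsm, map_smul]⟩
  obtain ⟨m, hm, ⟨e⟩⟩ := hS (Fin n → D)
  have := tower_bimod (F := F) (D := D) (K := K) (Fin n → D)
  refine ⟨m, ?_, e.restrictScalars D, ?_⟩
  · rw [← hm, Module.finrank_fin_fun]
  · intro c x
    rw [← hsm]
    have h1 : c • x = ((1 : D) ⊗ₜ[F] c) • x := by
      rw [TensorProduct.Algebra.smul_def, one_smul]
    rw [h1]
    exact e.map_smul _ _

end

end Vale.Agent.P199
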