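import Mathlib
import Vale.Agent.P199.Bimod

namespace Vale.Agent.P199

open TensorProduct

section
variable (F D K : Type*) [Field F] [DivisionRing D] [Algebra F D] [Field K] [Algebra F K]

def Emb (n : ℕ) : Prop := Nonempty (K →ₐ[F] Module.End D (Fin n → D))

variable {F D K} in
noncomputable def actHom (S₀ : Ideal (D ⊗[F] K)) (m : ℕ) : K →ₐ[F] Module.End D (Fin m → S₀) where
  toFun c :=
    { toFun := fun s => ((1 : D) ⊗ₜ[F] c) • s
      map_add' := fun s t => smul_add _ _ _
      map_smul' := fun d s => by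
        funext i
        refine Subtype.ext ?_
        change ((1 : D) ⊗ₜ[F] c) * (d • (s i : D ⊗[F] K)) = d • (((1 : D) ⊗ₜ[F] c) * (s i : D ⊗[F] K))
        have h1 : ∀ z : D ⊗[F] K, d • z = (d ⊗ₜ[F] (1 : K)) * z := by
          intro z
          have h2 : d ⊗ₜ[F] (1 : K) = d • (1 : D ⊗[F] K) := by
            rw [Algebra.TensorProduct.one_def, TensorProduct.smul_tmul', smul_eq_mul, mul_one]
          rw [h2, smul_mul_assoc, one_mul]
        rw [h1, h1, ← mul_assoc, ← mul_assoc, Algebra.TensorProduct.tmul_mul_tmul,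
          Algebra.TensorProduct.tmul_mul_tmul]
        simp }
  map_one' := by
    refine LinearMap.ext fun s => ?_
    change ((1 : D) ⊗ₜ[F] (1 : K)) • s = s
    rw [← Algebra.TensorProduct.one_def, one_smul]
  map_mul' c c' := by
    refine LinearMap.ext fun s => ?_
    change ((1 : D) ⊗ₜ[F] (c * c')) • s = ((1 : D) ⊗ₜ[F] c) • (((1 : D) ⊗ₜ[F] c') • s)
    rw [← mul_smul, Algebra.TensorProduct.tmul_mul_tmul, one_mul]
  map_zero' := by
    refine LinearMap.ext fun s => ?_
    change ((1 : D) ⊗ₜ[F] (0 : K)) • s = 0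
    rw [TensorProduct.tmul_zero, zero_smul]
  map_add' c c' := by
    refine LinearMap.ext fun s => ?_
    change ((1 : D) ⊗ₜ[F] (c + c')) • s = ((1 : D) ⊗ₜ[F] c) • s + ((1 : D) ⊗ₜ[F] c') • s
    rw [TensorProduct.tmul_add, add_smul]
  commutes' f := by
    refine LinearMap.ext fun s => ?_
    change ((1 : D) ⊗ₜ[F] (algebraMap F K f)) • s = f • s
    have : (1 : D) ⊗ₜ[F] (algebraMap F K f) = f • (1 : D ⊗[F] K) := by
      rw [Algebra.TensorProduct.one_def, Algebra.algebraMap_eq_smul_one, TensorProduct.tmul_smul]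
    rw [this, smul_assoc, one_smul]

theorem exists_deg [Algebra.IsCentral F D] [FiniteDimensional F K] :
    ∃ d : ℕ, 0 < d ∧ ∀ n, Emb F D K n ↔ d ∣ n := by
  obtain ⟨S₀, h0, hS⟩ := exists_dim' F D K
  refine ⟨Module.finrank D S₀, h0, fun n => ⟨?_, ?_⟩⟩
  · rintro ⟨φ⟩
    obtain ⟨m, hm, _⟩ := hS n φ
    exact ⟨m, by rw [hm, mul_comm]⟩
  · rintro ⟨m, hm⟩
    have : Module.Finite D (D ⊗[F] K) := inferInstance
    have : IsNoetherian D (D ⊗[F] K) := inferInstance
    have hfin : Module.Finite D S₀ :=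
      Module.Finite.of_injective ((S₀.subtype).restrictScalars D) Subtype.val_injective
    have hrank : Module.finrank D (Fin m → S₀) = Module.finrank D (Fin n → D) := by
      rw [Module.finrank_pi_fintype, Module.finrank_fin_fun]
      simp [hm, mul_comm]
    let e : (Fin m → S₀) ≃ₗ[D] (Fin n → D) := LinearEquiv.ofFinrankEq _ _ hrank
    exact ⟨((e.conjAlgEquiv F) : Module.End D (Fin m → S₀) →ₐ[F] Module.End D (Fin n → D)).comp
      (actHom S₀ m)⟩

theorem skolem_noether [Algebra.IsCentral F D] [FiniteDimensional F K] (n : ℕ)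
    (φ ψ : K →ₐ[F] Module.End D (Fin n → D)) :
    ∃ b : (Fin n → D) ≃ₗ[D] (Fin n → D), ∀ (c : K) (x : Fin n → D), b (φ c x) = ψ c (b x) := by
  obtain ⟨S₀, h0, hS⟩ := exists_dim' F D K
  obtain ⟨m, hm, e, he⟩ := hS n φ
  obtain ⟨m', hm', e', he'⟩ := hS n ψ
  have hmm : m = m' := Nat.eq_of_mul_eq_mul_right h0 (hm.symm.trans hm')
  subst hmm
  refine ⟨e.trans e'.symm, fun c x => ?_⟩
  rw [LinearEquiv.trans_apply, LinearEquiv.trans_apply, he, LinearEquiv.symm_apply_eq, he',
    LinearEquiv.apply_symm_apply]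

end

section
variable {F D : Type*} [Field F] [DivisionRing D] [Algebra F D]

theorem Emb.of_algHom {E K : Type*} [Field E] [Field K] [Algebra F E] [Algebra F K] (f : E →ₐ[F] K)
    {n : ℕ} (h : Emb F D K n) : Emb F D E n := by
  obtain ⟨φ⟩ := h
  exact ⟨φ.comp f⟩

theorem Emb.extend {E K : Type*} [Field E] [Field K] [Algebra F E] [Algebra F K] [Algebra E K]
    [IsScalarTower F E K] [FiniteDimensional E K] {n : ℕ} (h : Emb F D E n) :
    Emb F D K (n * Module.finrank E K) := by
  classical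
  obtain ⟨φ⟩ := h
  set r := Module.finrank E K with hr
  let b : Module.Basis (Fin r) E K := Module.finBasis E K
  let f1 : K →ₐ[F] Matrix (Fin r) (Fin r) E := (Algebra.leftMulMatrix b).restrictScalars F
  let f2 : Matrix (Fin r) (Fin r) E →ₐ[F] Matrix (Fin r) (Fin r) (Module.End D (Fin n → D)) :=
    φ.mapMatrix
  let f3 : Matrix (Fin r) (Fin r) (Module.End D (Fin n → D)) ≃ₐ[F] Module.End D (Fin r → Fin n → D) :=
    (endVecAlgEquivMatrixEnd (Fin r) F D (Fin n → D)).symm
  have hrank : Module.finrank D (Fin r → Fin n → D) = Module.finrank D (Fin (n * r) → D) := by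
    rw [Module.finrank_pi_fintype, Module.finrank_fin_fun]
    simp [mul_comm]
  let e : (Fin r → Fin n → D) ≃ₗ[D] (Fin (n * r) → D) := LinearEquiv.ofFinrankEq _ _ hrank
  exact ⟨((e.conjAlgEquiv F : Module.End D (Fin r → Fin n → D) →ₐ[F] Module.End D (Fin (n * r) → D)).comp
    (f3 : _ →ₐ[F] _)).comp (f2.comp f1)⟩

end

end Vale.Agent.P199
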