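import Mathlib

namespace Vale.Agent.P199

theorem grp {G : Type*} [Group G] [Finite G] (H : Subgroup G) (p : ℕ) [Fact p.Prime]
    (hp : p ∣ H.index) :
    ∃ (Q P : Subgroup G) (σ : G), Q ≤ H ∧ Q ≤ P ∧ ¬ p ∣ Q.relIndex H ∧
      (∃ j, Q.relIndex P = p ^ j) ∧ σ ∈ P ∧ σ ∉ Q ∧ (∀ q ∈ Q, σ⁻¹ * q * σ ∈ Q) := by
  obtain ⟨Q₀⟩ : Nonempty (Sylow p H) := inferInstance
  set Q : Subgroup G := (Q₀ : Subgroup H).map H.subtype with hQ
  have hQp : IsPGroup p Q := Q₀.isPGroup'.map H.subtype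
  obtain ⟨P, hP⟩ := hQp.exists_le_sylow
  have hQH : Q ≤ H := Subgroup.map_subtype_le _
  have hrel : Q.relIndex H = (Q₀ : Subgroup H).index := by
    rw [Subgroup.relIndex, hQ, Subgroup.subgroupOf,
      Subgroup.comap_map_eq_self_of_injective H.subtype_injective]
  have hrelp : ¬ p ∣ Q.relIndex H := by
    rw [hrel]
    exact Q₀.not_dvd_index
  have hPp : IsPGroup p P := P.isPGroup'
  have hne : Q ≠ (P : Subgroup G) := by
    intro h
    have h1 : Q.relIndex H * H.index = Q.index := Subgroup.relIndex_mul_index hQH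
    have h2 : p ∣ Q.index := by rw [← h1]; exact Dvd.dvd.mul_left hp _
    rw [h] at h2
    exact P.not_dvd_index h2
  have hlt : Q.subgroupOf (P : Subgroup G) < ⊤ := by
    rw [lt_top_iff_ne_top]
    intro h
    apply hne
    apply le_antisymm hP
    intro x hx
    have : (⟨x, hx⟩ : (P : Subgroup G)) ∈ Q.subgroupOf (P : Subgroup G) := by rw [h]; trivial
    exact Subgroup.mem_subgroupOf.mp this
  have hnil : Group.IsNilpotent (P : Subgroup G) := hPp.isNilpotent
  have hnc : NormalizerCondition (P : Subgroup G) := Group.normalizerCondition_of_isNilpotent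
  have h3 := hnc _ hlt
  obtain ⟨τ, hτ1, hτ2⟩ := Set.exists_of_ssubset (SetLike.coe_ssubset_coe.mpr h3)
  refine ⟨Q, P, (τ : G), hQH, hP, hrelp, ?_, τ.2, ?_, ?_⟩
  · exact hPp.index _
  · intro h
    exact hτ2 (Subgroup.mem_subgroupOf.mpr h)
  · intro q hq
    have hqP : q ∈ (P : Subgroup G) := hP hq
    rw [SetLike.mem_coe, Subgroup.mem_normalizer_iff''] at hτ1
    have h4 := (hτ1 ⟨q, hqP⟩).mp (Subgroup.mem_subgroupOf.mpr hq)
    exact Subgroup.mem_subgroupOf.mp h4

end Vale.Agent.P199
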