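import Mathlib
import Vale.Agent.P199.Emb
import Vale.Agent.P199.Group

namespace Vale.Agent.P199

open Polynomial

section base
variable {F D : Type*} [Field F] [DivisionRing D] [Algebra F D]

/-- right multiplication by `a` as a `D`-linear endomorphism of `D` -/
def rmul (a : D) : Module.End D D := LinearMap.toSpanSingleton D D a

theorem rmul_apply (a x : D) : rmul a x = x * a := rfl

theorem rmul_pow (a x : D) (n : ℕ) : ((rmul a) ^ n) x = x * a ^ n := by
  induction n generalizing x with
  | zero => simp
  | succ n ih =>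
    rw [pow_succ, Module.End.mul_apply, ih, rmul_apply, mul_assoc, pow_succ']

theorem aeval_rmul (a : D) (p : F[X]) (x : D) : (aeval (rmul a) p) x = x * aeval a p := by
  induction p using Polynomial.induction_on' with
  | add p q hp hq => rw [map_add, map_add, LinearMap.add_apply, hp, hq, mul_add]
  | monomial n c =>
    rw [aeval_monomial, aeval_monomial, Module.End.mul_apply, rmul_pow,
      Module.algebraMap_end_apply, Algebra.smul_def, ← mul_assoc, ← mul_assoc, Algebra.commutes]

/-- `F[x]/(minpoly a)` acts on `D` from the right -/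
theorem emb_one (a : D) {L : Type*} [Field L] [Algebra F L] (α : L) (hα : IsIntegral F α)
    (hmin : minpoly F α = minpoly F a) : Emb F D (IntermediateField.adjoin F {α}) 1 := by
  have h1 : ∀ p ∈ Ideal.span {minpoly F α}, (aeval (rmul a) : F[X] →ₐ[F] Module.End D D) p = 0 := by
    intro p hp
    rw [Ideal.mem_span_singleton] at hp
    obtain ⟨q, rfl⟩ := hp
    apply LinearMap.ext
    intro x
    rw [aeval_rmul, hmin, map_mul, minpoly.aeval, zero_mul, mul_zero]
    rfl
  let f : AdjoinRoot (minpoly F α) →ₐ[F] Module.End D D :=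
    Ideal.Quotient.liftₐ (Ideal.span {minpoly F α}) (aeval (rmul a)) h1
  let e : AdjoinRoot (minpoly F α) ≃ₐ[F] IntermediateField.adjoin F {α} :=
    IntermediateField.adjoinRootEquivAdjoin F hα
  let g : D ≃ₗ[D] (Fin 1 → D) := (LinearEquiv.funUnique (Fin 1) D D).symm
  exact ⟨((g.conjAlgEquiv F : Module.End D D →ₐ[F] Module.End D (Fin 1 → D)).comp f).comp
    (e.symm : _ →ₐ[F] _)⟩

end base

section fields
variable {F L : Type*} [Field F] [Field L] [Algebra F L] [FiniteDimensional F L] [IsGalois F L]

theorem finrank_fixed (S : Subgroup (L ≃ₐ[F] L)) :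
    Module.finrank F (IntermediateField.fixedField S) = S.index := by
  rw [IntermediateField.finrank_eq_fixingSubgroup_index, IntermediateField.fixingSubgroup_fixedField]

variable {D : Type*} [DivisionRing D] [Algebra F D]

theorem emb_extend_le {E K : IntermediateField F L} (h : E ≤ K) {n r : ℕ}
    (hr : Module.finrank F K = Module.finrank F E * r) (he : Emb F D E n) :
    Emb F D K (n * r) := by
  let _ : Algebra E K := (IntermediateField.inclusion h).toRingHom.toAlgebra
  have : IsScalarTower F E K := IsScalarTower.of_algebraMap_eq fun x => rfl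
  have : FiniteDimensional E K := FiniteDimensional.right F E K
  have h1 := Module.finrank_mul_finrank F E K
  have h2 : Module.finrank E K = r := by
    have h3 : 0 < Module.finrank F E := Module.finrank_pos
    rw [hr] at h1
    exact Nat.eq_of_mul_eq_mul_left h3 h1
  rw [← h2]
  exact he.extend

omit [FiniteDimensional F L] [IsGalois F L] in
theorem emb_restrict_le {E K : IntermediateField F L} (h : E ≤ K) {n : ℕ} (hk : Emb F D K n) :
    Emb F D E n := hk.of_algHom (IntermediateField.inclusion h)

end fields

universe v w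

theorem exists_setup (F : Type v) (D : Type w) [Field F] [DivisionRing D] [Algebra F D]
    [Algebra.IsCentral F D] [Algebra.IsAlgebraic F D] (hnc : (⊥ : Subalgebra F D) ≠ ⊤) :
    ∃ (L : Type v) (_ : Field L) (_ : Algebra F L) (_ : FiniteDimensional F L)
      (E K : IntermediateField F L) (σ : L ≃ₐ[F] L) (d : ℕ), E ≤ K ∧ 0 < d ∧
      (∀ n, Emb F D E n ↔ d ∣ n) ∧ Emb F D K d ∧ (∀ x ∈ K, σ x ∈ K) ∧ (∀ x ∈ E, σ x = x) ∧
      (∃ x ∈ K, σ x ≠ x) := by
  obtain ⟨a, ha, hsep⟩ := JacobsonNoether.exists_separable_and_not_isCentral' hnc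
  have haint : IsIntegral F a := (Algebra.IsAlgebraic.isAlgebraic (R := F) a).isIntegral
  set f := minpoly F a with hf
  have hirr : Irreducible f := minpoly.irreducible haint
  have hmonic : f.Monic := minpoly.monic haint
  have hfsep : f.Separable := hsep
  have hdeg1 : f.natDegree ≠ 1 := by
    intro h1
    apply ha
    have h2 := (minpoly.natDegree_eq_one_iff (A := F) (B := D) (x := a)).mp h1
    obtain ⟨c, hc⟩ := h2
    exact Algebra.mem_bot.mpr ⟨c, hc⟩
  let L := f.SplittingField
  have hgal : IsGalois F L := IsGalois.of_separable_splitting_field (p := f) hfsep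
  -- a root
  have hsplit := SplittingField.splits f
  have hdeg0 : f.degree ≠ 0 := by
    intro h0
    have := hirr.natDegree_pos
    rw [natDegree_pos_iff_degree_pos, h0] at this
    exact lt_irrefl _ this
  obtain ⟨α, hα⟩ : ∃ α : L, aeval α f = 0 := by
    refine ⟨rootOfSplits hsplit (by rwa [degree_map]), ?_⟩
    have h0 := eval_rootOfSplits hsplit (by rwa [degree_map])
    rwa [eval_map_algebraMap] at h0
  have hαint : IsIntegral F α := ⟨f, hmonic, hα⟩
  have hmin : minpoly F α = f := (minpoly.eq_of_irreducible_of_monic hirr hα hmonic).symm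
  set K₀ : IntermediateField F L := IntermediateField.adjoin F {α} with hK₀
  have hn : Module.finrank F K₀ = f.natDegree := by
    rw [hK₀, IntermediateField.adjoin.finrank hαint, hmin]
  obtain ⟨p, hp, hpn⟩ := Nat.exists_prime_and_dvd hdeg1
  have := Fact.mk hp
  set H := K₀.fixingSubgroup with hH
  have hindex : H.index = f.natDegree := by
    rw [← hn, IntermediateField.finrank_eq_fixingSubgroup_index]
  obtain ⟨Q, P, σ, hQH, hQP, hrel, ⟨j, hj⟩, hσP, hσQ, hσn⟩ := grp H p (by rw [hindex]; exact hpn)
  set E : IntermediateField F L := IntermediateField.fixedField P with hE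
  set K : IntermediateField F L := IntermediateField.fixedField Q with hK
  have hEK : E ≤ K := IntermediateField.fixedField_le hQP
  have hK₀K : K₀ ≤ K := (IntermediateField.le_iff_le _ _).mpr hQH
  obtain ⟨dE, hdE0, hdE⟩ := exists_deg F D E
  obtain ⟨dK, hdK0, hdK⟩ := exists_deg F D K
  have hrK : Module.finrank F K = Module.finrank F K₀ * Q.relIndex H := by
    rw [hK, finrank_fixed, ← Subgroup.relIndex_mul_index hQH, mul_comm, hindex, hn]
  have hrE : Module.finrank F K = Module.finrank F E * Q.relIndex P := by
    rw [hK, hE, finrank_fixed, finrank_fixed, ← Subgroup.relIndex_mul_index hQP, mul_comm]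
  have h1 : Emb F D K (1 * Q.relIndex H) := emb_extend_le hK₀K hrK (emb_one a α hαint (by rw [hmin]))
  rw [one_mul, hdK] at h1
  have h2 : Emb F D E dK := emb_restrict_le hEK ((hdK dK).mpr dvd_rfl)
  rw [hdE] at h2
  have h3 : Emb F D K (dE * Q.relIndex P) := emb_extend_le hEK hrE ((hdE dE).mpr dvd_rfl)
  rw [hdK, hj] at h3
  have hcop : Nat.Coprime dK (p ^ j) := by
    apply Nat.Coprime.pow_right
    rw [Nat.coprime_comm, hp.coprime_iff_not_dvd]
    intro hdvd
    exact hrel (hdvd.trans h1)
  have h4 : dK ∣ dE := hcop.dvd_of_dvd_mul_right h3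
  have h5 : dE = dK := Nat.dvd_antisymm h2 h4
  refine ⟨L, inferInstance, inferInstance, inferInstance, E, K, σ, dE, hEK, hdE0, hdE, ?_, ?_, ?_, ?_⟩
  · rw [hdK, h5]
  · intro x hx
    rw [hK, IntermediateField.mem_fixedField_iff] at hx ⊢
    intro q hq
    have h6 := hx _ (hσn q hq)
    have h7 : (σ⁻¹ * q * σ) x = σ⁻¹ (q (σ x)) := rfl
    rw [h7] at h6
    have h8 := congrArg σ h6
    rwa [← AlgEquiv.mul_apply, mul_inv_cancel, AlgEquiv.one_apply] at h8
  · intro x hx
    rw [hE, IntermediateField.mem_fixedField_iff] at hx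
    exact hx σ hσP
  · by_contra hcon
    push Not at hcon
    apply hσQ
    have h6 : σ ∈ K.fixingSubgroup := by
      rw [IntermediateField.mem_fixingSubgroup_iff]
      exact hcon
    rwa [hK, IntermediateField.fixingSubgroup_fixedField] at h6

end Vale.Agent.P199
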