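import Mathlib
import Vale.Agent.P199.Field

namespace Vale.Agent.P199

section skew
variable {k A : Type*} [Field k] [Ring A] [Algebra k A]

theorem skew_fg (A₁ : Subalgebra k A) (hA₁ : (Subalgebra.toSubmodule A₁).FG) (T : A)
    (hT : IsIntegral k T) (h : ∀ u ∈ A₁, ∃ u' ∈ A₁, T * u = u' * T) :
    (Subalgebra.toSubmodule (Algebra.adjoin k ((A₁ : Set A) ∪ {T}))).FG := by
  set U := Subalgebra.toSubmodule A₁ with hU
  set V := Subalgebra.toSubmodule (Algebra.adjoin k {T}) with hV
  have hVfg : V.FG := hT.fg_adjoin_singleton
  have hW : (U * V).FG := hA₁.mul hVfg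
  have hUU : U * U ≤ U := by
    rw [Submodule.mul_le]
    intro x hx y hy
    exact A₁.mul_mem hx hy
  have hVV : V * V ≤ V := by
    rw [Submodule.mul_le]
    intro x hx y hy
    exact (Algebra.adjoin k {T}).mul_mem hx hy
  have h1V : (1 : A) ∈ V := (Algebra.adjoin k {T}).one_mem
  have h1U : (1 : A) ∈ U := A₁.one_mem
  have hTV : T ∈ V := Algebra.subset_adjoin (Set.mem_singleton T)
  have hUVV : (U * V) * V ≤ U * V := by
    rw [mul_assoc]
    exact mul_le_mul' le_rfl hVV
  have hUUV : U * (U * V) ≤ U * V := by
    rw [← mul_assoc]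
    exact mul_le_mul' hUU le_rfl
  have key : ∀ v ∈ Algebra.adjoin k {T}, ∀ u ∈ U, v * u ∈ U * V := by
    intro v hv
    induction hv using Algebra.adjoin_induction with
    | mem x hx =>
      intro u hu
      rw [Set.mem_singleton_iff] at hx
      subst hx
      obtain ⟨u', hu', he⟩ := h u hu
      rw [he]
      exact Submodule.mul_mem_mul hu' hTV
    | algebraMap r =>
      intro u hu
      have : algebraMap k A r * u = (algebraMap k A r * u) * 1 := (mul_one _).symm
      rw [this]
      exact Submodule.mul_mem_mul (A₁.mul_mem (A₁.algebraMap_mem r) hu) h1V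
    | add x y _ _ hx hy =>
      intro u hu
      rw [add_mul]
      exact (U * V).add_mem (hx u hu) (hy u hu)
    | mul x y _ _ hx hy =>
      intro u hu
      rw [mul_assoc]
      refine Submodule.mul_induction_on (hy u hu) ?_ ?_
      · intro m hm n hn
        rw [← mul_assoc]
        exact hUVV (Submodule.mul_mem_mul (hx m hm) hn)
      · intro a b ha hb
        rw [mul_add]
        exact (U * V).add_mem ha hb
  have hmul : ∀ x y, x ∈ U * V → y ∈ U * V → x * y ∈ U * V := by
    intro x y hx hy
    refine Submodule.mul_induction_on hx ?_ ?_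
    · intro u1 hu1 v1 hv1
      refine Submodule.mul_induction_on hy ?_ ?_
      · intro u2 hu2 v2 hv2
        have h1 : v1 * u2 ∈ U * V := key v1 hv1 u2 hu2
        have h2 : (v1 * u2) * v2 ∈ U * V := hUVV (Submodule.mul_mem_mul h1 hv2)
        have h3 : u1 * v1 * (u2 * v2) = u1 * ((v1 * u2) * v2) := by simp only [mul_assoc]
        rw [h3]
        exact hUUV (Submodule.mul_mem_mul hu1 h2)
      · intro a b ha hb
        rw [mul_add]
        exact (U * V).add_mem ha hb
    · intro a b ha hb
      rw [add_mul]
      exact (U * V).add_mem ha hb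
  have hone : (1 : A) ∈ U * V := by
    have := Submodule.mul_mem_mul h1U h1V
    rwa [mul_one] at this
  let B := Submodule.toSubalgebra (U * V) hone hmul
  have hle : Algebra.adjoin k ((A₁ : Set A) ∪ {T}) ≤ B := by
    apply Algebra.adjoin_le
    intro x hx
    rcases hx with hx | hx
    · have := Submodule.mul_mem_mul (M := U) (N := V) hx h1V
      rw [mul_one] at this
      exact this
    · rw [Set.mem_singleton_iff] at hx
      subst hx
      have := Submodule.mul_mem_mul (M := U) (N := V) h1U hTV
      rw [one_mul] at this
      exact this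
  have hfin : Module.Finite k (U * V : Submodule k A) := Module.Finite.iff_fg.mpr hW
  have hnoeth : IsNoetherian k (U * V : Submodule k A) := inferInstance
  have hle2 : Subalgebra.toSubmodule (Algebra.adjoin k ((A₁ : Set A) ∪ {T})) ≤ U * V := hle
  exact (isNoetherian_submodule.mp hnoeth) _ hle2

end skew

section schur
variable {F D : Type*} [Field F] [DivisionRing D] [Algebra F D] {E : Type*} [Field E] [Algebra F E]

theorem schur (d : ℕ) (φ : E →ₐ[F] Module.End D (Fin d → D))
    (hdiv : ∀ n, Emb F D E n → d ∣ n) (T : Module.End D (Fin d → D))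
    (hcomm : ∀ e, T * φ e = φ e * T) (hT : T ≠ 0) : Function.Injective T := by
  set W := LinearMap.range T with hW
  have hstab : ∀ (e : E), ∀ x ∈ W, φ e x ∈ W := by
    intro e x hx
    obtain ⟨y, rfl⟩ := hx
    refine ⟨φ e y, ?_⟩
    have := LinearMap.congr_fun (hcomm e) y
    exact this
  let ψ : E →ₐ[F] Module.End D W :=
    { toFun := fun e => (φ e).restrict (hstab e)
      map_one' := by
        apply LinearMap.ext; intro x; apply Subtype.ext
        simp
      map_mul' := fun a b => by
        apply LinearMap.ext; intro x; apply Subtype.ext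
        simp
      map_zero' := by
        apply LinearMap.ext; intro x; apply Subtype.ext
        simp
      map_add' := fun a b => by
        apply LinearMap.ext; intro x; apply Subtype.ext
        simp
      commutes' := fun f => by
        apply LinearMap.ext; intro x; apply Subtype.ext
        simp }
  set m := Module.finrank D W with hm
  have hrank : Module.finrank D W = Module.finrank D (Fin m → D) := by
    rw [Module.finrank_fin_fun]
  let g : W ≃ₗ[D] (Fin m → D) := LinearEquiv.ofFinrankEq _ _ hrank
  have hemb : Emb F D E m :=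
    ⟨(g.conjAlgEquiv F : Module.End D W →ₐ[F] Module.End D (Fin m → D)).comp ψ⟩
  have h1 := hdiv m hemb
  have h2 : m ≤ d := by
    have := Submodule.finrank_le W
    rwa [Module.finrank_fin_fun] at this
  have h3 : 0 < m := by
    rw [hm]
    have : W ≠ ⊥ := by
      intro h
      apply hT
      exact LinearMap.range_eq_bot.mp h
    have := Submodule.nontrivial_iff_ne_bot.mpr this
    exact Module.finrank_pos
  have h4 : m = d := le_antisymm h2 (Nat.le_of_dvd h3 h1)
  have h5 : W = ⊤ := by
    apply Submodule.eq_top_of_finrank_eq
    rw [← hm, h4, Module.finrank_fin_fun]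
  rw [LinearMap.injective_iff_surjective]
  exact LinearMap.range_eq_top.mp h5

end schur

end Vale.Agent.P199
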