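import Mathlib
import Vale.Agent.P199.Sub

namespace Vale.Agent.P199

open Polynomial

universe u v w

theorem exists_struct {k : Type u} {F : Type v} {D : Type w} [Field k] [Field F] [DivisionRing D]
    [Algebra k F] [Algebra F D] [Algebra k D] [IsScalarTower k F D] [Algebra.IsCentral F D]
    [Algebra.IsAlgebraic k D]
    (hmat : ∀ (n : ℕ) (T : Module.End D (Fin n → D)), IsAlgebraic k T)
    (hnc : (⊥ : Subalgebra F D) ≠ ⊤) :
    ∃ (n : ℕ) (E : Subalgebra F (Module.End D (Fin n → D)))
      (B : Subalgebra k (Module.End D (Fin n → D))), 0 < n ∧ IsField E ∧ FiniteDimensional F E ∧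
      (∀ T, (∀ e ∈ E, T * e = e * T) → T ≠ 0 → IsUnit T) ∧ (∀ x ∈ B, ∀ e ∈ E, x * e = e * x) ∧
      FiniteDimensional k B ∧ IsDomain B ∧ ∃ x y : B, x * y ≠ y * x := by
  have : Algebra.IsAlgebraic F D := Algebra.IsAlgebraic.extendScalars (R := k) (algebraMap k F).injective
  have hkF : Algebra.IsAlgebraic k F := by
    constructor
    intro x
    have h1 : IsAlgebraic k (algebraMap F D x) := Algebra.IsAlgebraic.isAlgebraic _
    exact (isAlgebraic_algebraMap_iff (algebraMap F D).injective).mp h1
  obtain ⟨L, _, _, _, E, K, σ, d, hEK, hd0, hdE, ⟨φ⟩, hσK, hσE, x₀, hx₀K, hx₀⟩ :=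
    exists_setup F D hnc
  let _ : Algebra k L := ((algebraMap F L).comp (algebraMap k F)).toAlgebra
  have htow : IsScalarTower k F L := IsScalarTower.of_algebraMap_eq fun _ => rfl
  have : IsScalarTower k F K := inferInstance
  have hKF : Algebra.IsAlgebraic F K := inferInstance
  have hkK : Algebra.IsAlgebraic k K := Algebra.IsAlgebraic.trans k F K
  let σK : K →ₐ[F] K :=
    { toFun := fun x => ⟨σ x, hσK x x.2⟩
      map_one' := by apply Subtype.ext; simp
      map_mul' := fun a b => by apply Subtype.ext; simp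
      map_zero' := by apply Subtype.ext; simp
      map_add' := fun a b => by apply Subtype.ext; simp
      commutes' := fun f => by apply Subtype.ext; simp }
  have hσKval : ∀ x : K, ((σK x : K) : L) = σ x := fun _ => rfl
  obtain ⟨b, hb⟩ := skolem_noether F D K d φ (φ.comp σK)
  let T : Module.End D (Fin d → D) := (b : (Fin d → D) →ₗ[D] (Fin d → D))
  have hT : ∀ c : K, T * φ c = φ (σK c) * T := by
    intro c
    apply LinearMap.ext
    intro x
    exact hb c x
  have hTinj : Function.Injective T := b.injective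
  let c₀ : K := ⟨x₀, hx₀K⟩
  have hc₀ : σK c₀ ≠ c₀ := by
    intro h
    apply hx₀
    exact congrArg Subtype.val h
  -- the commutative part
  set R : Set K := (minpoly F c₀).rootSet K with hR
  have hRfin : R.Finite := Polynomial.rootSet_finite _ _
  set A₀ : Subalgebra k K := Algebra.adjoin k R with hA₀
  have hA₀fg : (Subalgebra.toSubmodule A₀).FG :=
    fg_adjoin_of_finite hRfin (fun x _ => (Algebra.IsAlgebraic.isAlgebraic (R := k) x).isIntegral)
  have hm0 : minpoly F c₀ ≠ 0 := minpoly.ne_zero (Algebra.IsAlgebraic.isAlgebraic (R := F) c₀).isIntegral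
  have hc₀A : c₀ ∈ A₀ := by
    apply Algebra.subset_adjoin
    rw [hR, mem_rootSet]
    exact ⟨hm0, minpoly.aeval F c₀⟩
  have hσA : ∀ x ∈ A₀, σK x ∈ A₀ := by
    intro x hx
    induction hx using Algebra.adjoin_induction with
    | mem x hx =>
      apply Algebra.subset_adjoin
      rw [hR, mem_rootSet] at hx ⊢
      refine ⟨hm0, ?_⟩
      rw [aeval_algHom_apply, hx.2, map_zero]
    | algebraMap r =>
      have h1 : σK (algebraMap k K r) = algebraMap k K r := by
        rw [IsScalarTower.algebraMap_apply k F K, AlgHom.commutes]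
      rw [h1]
      exact A₀.algebraMap_mem r
    | add x y _ _ hx hy => rw [map_add]; exact A₀.add_mem hx hy
    | mul x y _ _ hx hy => rw [map_mul]; exact A₀.mul_mem hx hy
  let φk : K →ₐ[k] Module.End D (Fin d → D) := φ.restrictScalars k
  let A₁ : Subalgebra k (Module.End D (Fin d → D)) := A₀.map φk
  have hA₁fg : (Subalgebra.toSubmodule A₁).FG := by
    have : Subalgebra.toSubmodule A₁ = (Subalgebra.toSubmodule A₀).map φk.toLinearMap := rfl
    rw [this]
    exact hA₀fg.map _
  have hskew : ∀ u ∈ A₁, ∃ u' ∈ A₁, T * u = u' * T := by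
    intro u hu
    obtain ⟨x, hx, rfl⟩ := Subalgebra.mem_map.mp hu
    exact ⟨φk (σK x), Subalgebra.mem_map.mpr ⟨σK x, hσA x hx, rfl⟩, hT x⟩
  have hTint : IsIntegral k T := (hmat d T).isIntegral
  have hfg := skew_fg A₁ hA₁fg T hTint hskew
  set B : Subalgebra k (Module.End D (Fin d → D)) := Algebra.adjoin k ((A₁ : Set _) ∪ {T}) with hB
  -- B centralizes φ(E)
  let φE : E →ₐ[F] Module.End D (Fin d → D) := φ.comp (IntermediateField.inclusion hEK)
  have hBC : B ≤ Subalgebra.centralizer k (Set.range φE) := by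
    apply Algebra.adjoin_le
    intro x hx
    rw [SetLike.mem_coe, Subalgebra.mem_centralizer_iff]
    rintro _ ⟨e, rfl⟩
    rcases hx with hx | hx
    · obtain ⟨y, _, rfl⟩ := Subalgebra.mem_map.mp hx
      change φ _ * φ y = φ y * φ _
      rw [← map_mul, ← map_mul, mul_comm]
    · rw [Set.mem_singleton_iff] at hx
      subst hx
      change φ (IntermediateField.inclusion hEK e) * T = T * φ (IntermediateField.inclusion hEK e)
      rw [hT]
      congr 2
      apply Subtype.ext
      rw [hσKval]
      exact (hσE e e.2).symm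
  have hinj : ∀ x ∈ B, x ≠ 0 → Function.Injective x := by
    intro x hx hx0
    apply schur d φE (fun n => (hdE n).mp) x _ hx0
    intro e
    have := hBC hx
    rw [Subalgebra.mem_centralizer_iff] at this
    exact (this _ ⟨e, rfl⟩).symm
  have : Nonempty (Fin d) := ⟨⟨0, hd0⟩⟩
  have hnt : Nontrivial (Module.End D (Fin d → D)) := inferInstance
  refine ⟨d, φE.range, B, hd0, ?_, ?_, ?_, ?_, Module.Finite.iff_fg.mpr hfg, ?_, ?_⟩
  · exact (AlgEquiv.ofInjectiveField φE).symm.toMulEquiv.isField (Field.toIsField E)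
  · exact Module.Finite.equiv (AlgEquiv.ofInjectiveField φE).toLinearEquiv
  · intro T' hT' hT'0
    rw [LinearMap.isUnit_iff_ker_eq_bot]
    exact LinearMap.ker_eq_bot.mpr
      (schur d φE (fun n => (hdE n).mp) T' (fun e => hT' _ ⟨e, rfl⟩) hT'0)
  · intro x hx e he
    have := hBC hx
    rw [Subalgebra.mem_centralizer_iff] at this
    exact (this e he).symm
  · have h1 : NoZeroDivisors B := by
      constructor
      intro x y hxy
      by_cases hx : x = 0
      · left; exact hx
      · right
        have hx' : (x : Module.End D (Fin d → D)) ≠ 0 := fun h => hx (Subtype.ext h)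
        have h2 := hinj x x.2 hx'
        apply Subtype.ext
        apply LinearMap.ext
        intro z
        apply h2
        have h3 := congrArg (fun t : B => (t : Module.End D (Fin d → D)) z) hxy
        simp only [Subalgebra.coe_mul, Module.End.mul_apply] at h3
        rw [h3]
        simp
    have h2 : Nontrivial B := inferInstance
    exact NoZeroDivisors.to_isDomain B
  · refine ⟨⟨T, Algebra.subset_adjoin (Or.inr rfl)⟩,
      ⟨φk c₀, Algebra.subset_adjoin (Or.inl (Subalgebra.mem_map.mpr ⟨c₀, hc₀A, rfl⟩))⟩, ?_⟩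
    intro h
    have h1 : T * φ c₀ = φ c₀ * T := congrArg Subtype.val h
    rw [hT] at h1
    apply hc₀
    have h2 : φ (σK c₀) = φ c₀ := by
      apply LinearMap.ext
      intro x
      obtain ⟨y, rfl⟩ := b.surjective x
      exact LinearMap.congr_fun h1 y
    exact φ.toRingHom.injective h2

theorem exists_fd {k : Type u} {F : Type v} {D : Type w} [Field k] [Field F] [DivisionRing D]
    [Algebra k F] [Algebra F D] [Algebra k D] [IsScalarTower k F D] [Algebra.IsCentral F D]
    [Algebra.IsAlgebraic k D]
    (hmat : ∀ (n : ℕ) (T : Module.End D (Fin n → D)), IsAlgebraic k T)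
    (hnc : (⊥ : Subalgebra F D) ≠ ⊤) :
    ∃ (n : ℕ) (B : Subalgebra k (Module.End D (Fin n → D))), FiniteDimensional k B ∧
      IsDomain B ∧ ∃ x y : B, x * y ≠ y * x := by
  obtain ⟨n, E, B, _, _, _, _, _, h1, h2, h3⟩ := exists_struct hmat hnc
  exact ⟨n, B, h1, h2, h3⟩

end Vale.Agent.P199
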