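import Mathlib
import Vale.Agent.P199.Amitsur

namespace Vale.Agent.P199

open Polynomial Finset

theorem central_map {k D : Type*} [Field k] [DivisionRing D] [Algebra k D] (g : k[X]) (f : D[X]) :
    f * g.map (algebraMap k D) = g.map (algebraMap k D) * f := by
  ext i
  rw [coeff_mul, coeff_mul]
  rw [← Finset.Nat.sum_antidiagonal_swap]
  apply sum_congr rfl
  intro x _
  simp only [coeff_map, Prod.fst_swap, Prod.snd_swap]
  exact (Algebra.commutes _ _).symm

theorem multiple_aux {k D : Type*} [Field k] [DivisionRing D] [Algebra k D] {f : D[X]} (hf : f ≠ 0) :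
    ∀ (m : ℕ) (g : ℕ → k[X]), (∃ j, j ≤ m ∧ g j ≠ 0) →
      ∑ j ∈ range (m + 1), (g j).map (algebraMap k D) * f ^ j = 0 →
      ∃ c : k[X], c ≠ 0 ∧ ∃ h : D[X], c.map (algebraMap k D) = h * f := by
  intro m
  induction m with
  | zero =>
    rintro g ⟨j, hj, hg⟩ hs
    have : j = 0 := by omega
    subst this
    refine ⟨g 0, hg, 0, ?_⟩
    simpa using hs
  | succ m ih =>
    rintro g ⟨j, hj, hg⟩ hs
    rw [sum_range_succ'] at hs
    have h1 : ∑ j ∈ range (m + 1), (g (j + 1)).map (algebraMap k D) * f ^ (j + 1) =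
        (∑ j ∈ range (m + 1), (g (j + 1)).map (algebraMap k D) * f ^ j) * f := by
      rw [sum_mul]
      apply sum_congr rfl
      intro i _
      rw [pow_succ, mul_assoc]
    rw [h1, pow_zero, mul_one] at hs
    by_cases h0 : g 0 = 0
    · rw [h0, Polynomial.map_zero, add_zero] at hs
      have h2 := (mul_eq_zero.mp hs).resolve_right hf
      apply ih (fun j => g (j + 1)) _ h2
      refine ⟨j - 1, by omega, ?_⟩
      have hj0 : j ≠ 0 := by rintro rfl; exact hg h0
      have : j - 1 + 1 = j := by omega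
      simp only [this]
      exact hg
    · refine ⟨g 0, h0, -∑ j ∈ range (m + 1), (g (j + 1)).map (algebraMap k D) * f ^ j, ?_⟩
      rw [neg_mul]
      exact eq_neg_of_add_eq_zero_right hs

theorem exists_multiple {k D : Type*} [Field k] [DivisionRing D] [Algebra k D] [Uncountable k]
    [Algebra.IsAlgebraic k D] {f : D[X]} (hf : f ≠ 0) :
    ∃ c : k[X], c ≠ 0 ∧ ∃ h : D[X], c.map (algebraMap k D) = h * f := by
  classical
  -- choose m
  let A : ℕ → Set k := fun m => {c | ∃ v : Fin (m + 1) → k, v ≠ 0 ∧ ∑ j, v j • (ev c f) ^ (j : ℕ) = 0}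
  have hA : ⋃ m, A m = Set.univ := by
    rw [Set.eq_univ_iff_forall]
    intro c
    rw [Set.mem_iUnion]
    obtain ⟨p, hp0, hp⟩ := Algebra.IsAlgebraic.isAlgebraic (R := k) (ev c f)
    refine ⟨p.natDegree, fun j => p.coeff j, ?_, ?_⟩
    · intro h
      have h1 := congrFun h (Fin.last _)
      simp only [Fin.val_last, Pi.zero_apply, coeff_natDegree] at h1
      exact hp0 (leadingCoeff_eq_zero.mp h1)
    · rw [aeval_eq_sum_range] at hp
      rw [Fin.sum_univ_eq_sum_range (fun j => p.coeff j • (ev c f) ^ j)]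
      exact hp
  obtain ⟨m, hm⟩ : ∃ m, (A m).Infinite := by
    by_contra hcon
    push Not at hcon
    have h1 : (⋃ m, A m).Countable := Set.countable_iUnion (fun m => (hcon m).countable)
    rw [hA] at h1
    exact Set.not_countable_univ h1
  let b := Module.Basis.ofVectorSpace k D
  let s : Finset (Module.Basis.ofVectorSpaceIndex k D) :=
    (range (m + 1)).biUnion (fun j => (range ((f ^ j).natDegree + 1)).biUnion
      (fun i => (b.repr ((f ^ j).coeff i)).support))
  have hs : ∀ j ≤ m, ∀ β, β ∉ s → crd b β (f ^ j) = 0 := by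
    intro j hj β hβ
    ext i
    rw [coeff_crd, coeff_zero]
    by_contra hne
    apply hβ
    simp only [s, mem_biUnion, mem_range]
    refine ⟨j, by omega, i, ?_, Finsupp.mem_support_iff.mpr hne⟩
    by_contra hlt
    rw [coeff_eq_zero_of_natDegree_lt (by omega)] at hne
    simp at hne
  let M : Matrix (Fin (m + 1)) s k[X] := fun j β => crd b β (f ^ (j : ℕ))
  obtain ⟨g, hg0, hg⟩ := dependent_of_infinite M (by
    apply hm.mono
    rintro c ⟨v, hv0, hv⟩
    refine ⟨v, hv0, ?_⟩
    intro β
    have h1 : ∀ j ∈ (univ : Finset (Fin (m + 1))), v j * (M j β).eval c =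
        (b.repr (v j • (ev c f) ^ (j : ℕ))) β := by
      intro j _
      simp only [M]
      rw [eval_crd, map_pow, map_smul, Finsupp.smul_apply, smul_eq_mul]
    rw [sum_congr rfl h1, ← Finsupp.finsetSum_apply, ← map_sum, hv]
    simp)
  let g' : ℕ → k[X] := fun j => if h : j < m + 1 then g ⟨j, h⟩ else 0
  have hg' : ∀ j : Fin (m + 1), g' j = g j := by
    intro j
    simp only [g', j.2, dif_pos]
  apply multiple_aux hf m g'
  · obtain ⟨j, hj⟩ := Function.ne_iff.mp hg0
    refine ⟨j, by omega, ?_⟩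
    rw [hg']
    exact hj
  · apply eq_zero_of_crd b
    intro β
    rw [crd_sum]
    simp_rw [crd_mul]
    by_cases hβ : β ∈ s
    · rw [← Fin.sum_univ_eq_sum_range (fun j => g' j * crd b β (f ^ j))]
      have := hg ⟨β, hβ⟩
      rw [← this]
      apply sum_congr rfl
      intro j _
      rw [hg']
    · apply sum_eq_zero
      intro j hj
      rw [hs j (by rw [mem_range] at hj; omega) β hβ, mul_zero]

end Vale.Agent.P199
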