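import Mathlib
import Vale.Agent.P199.Multiple

namespace Vale.Agent.P199

open Polynomial Finset

section
variable {k D : Type*} [Field k] [DivisionRing D] [Algebra k D] {n : ℕ}

/-- left multiplication by scalars of `D` -/
def lsm (k D : Type*) [Field k] [DivisionRing D] [Algebra k D] (n : ℕ) :
    D →+* Module.End k (Fin n → D) where
  toFun a :=
    { toFun := fun v => a • v
      map_add' := fun x y => smul_add a x y
      map_smul' := fun c x => (smul_comm c a x).symm }
  map_one' := by ext v; simp
  map_mul' a b := by ext v; simp [mul_smul]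
  map_zero' := by ext v; simp
  map_add' a b := by ext v; simp [add_smul]

theorem lsm_apply (a : D) (v : Fin n → D) : lsm k D n a v = a • v := rfl

theorem lsm_comm (T : Module.End D (Fin n → D)) (a : D) :
    Commute (lsm k D n a) (T.restrictScalars k) := by
  apply LinearMap.ext
  intro v
  rw [Module.End.mul_apply, Module.End.mul_apply, lsm_apply, lsm_apply]
  exact (T.map_smul a v).symm

noncomputable def act (T : Module.End D (Fin n → D)) : D[X] →+* Module.End k (Fin n → D) :=
  eval₂RingHom' (lsm k D n) (T.restrictScalars k) (lsm_comm T)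

theorem act_X (T : Module.End D (Fin n → D)) (v : Fin n → D) :
    act (k := k) T X v = T v := by
  have h : act (k := k) T X = T.restrictScalars k := eval₂_X _ _
  rw [h]
  rfl

theorem act_C (T : Module.End D (Fin n → D)) (a : D) (v : Fin n → D) :
    act (k := k) T (C a) v = a • v := by
  have h : act (k := k) T (C a) = lsm k D n a := eval₂_C _ _
  rw [h]
  rfl

theorem act_X_pow (T : Module.End D (Fin n → D)) (i : ℕ) (v : Fin n → D) :
    act (k := k) T (X ^ i) v = (T ^ i) v := by
  induction i generalizing v with
  | zero => simp
  | succ i ih => rw [pow_succ, map_mul, Module.End.mul_apply, act_X, ih, pow_succ, Module.End.mul_apply]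

theorem act_map (T : Module.End D (Fin n → D)) (c : k[X]) (v : Fin n → D) :
    act (k := k) T (c.map (algebraMap k D)) v = (aeval T c) v := by
  induction c using Polynomial.induction_on' with
  | add p q hp hq =>
    rw [Polynomial.map_add, map_add, LinearMap.add_apply, hp, hq, map_add, LinearMap.add_apply]
  | monomial i a =>
    rw [Polynomial.map_monomial, ← C_mul_X_pow_eq_monomial, map_mul, Module.End.mul_apply, act_X_pow,
      act_C, aeval_monomial, Module.End.mul_apply, Module.algebraMap_end_apply, algebraMap_smul]

/-- cyclic vectors are killed by polynomials with central coefficients -/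
theorem kill_vec [Uncountable k] [Algebra.IsAlgebraic k D] (T : Module.End D (Fin n → D))
    (v : Fin n → D) : ∃ c : k[X], c ≠ 0 ∧ (aeval T c) v = 0 := by
  have hdep : ¬ LinearIndependent D (fun i : Fin (n + 1) => (T ^ (i : ℕ)) v) := by
    intro hli
    have h1 := hli.fintype_card_le_finrank
    rw [Fintype.card_fin, Module.finrank_fin_fun] at h1
    omega
  rw [Fintype.not_linearIndependent_iff] at hdep
  obtain ⟨g, hg, i₀, hi₀⟩ := hdep
  let f : D[X] := ∑ i : Fin (n + 1), C (g i) * X ^ (i : ℕ)
  have hf : f ≠ 0 := by
    intro h
    apply hi₀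
    have h1 := congrArg (fun p => p.coeff i₀) h
    simp only [f, finsetSum_coeff, coeff_C_mul, coeff_X_pow, coeff_zero, mul_ite, mul_one,
      mul_zero] at h1
    rw [← h1, Finset.sum_eq_single i₀]
    · simp
    · intro b _ hb
      rw [if_neg]
      intro h2
      exact hb (Fin.ext h2.symm)
    · intro h2
      exact absurd (mem_univ _) h2
  have hfv : act (k := k) T f v = 0 := by
    simp only [f, map_sum, LinearMap.sum_apply, map_mul, Module.End.mul_apply, act_X_pow, act_C]
    exact hg
  obtain ⟨c, hc0, h, hh⟩ := exists_multiple (k := k) hf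
  refine ⟨c, hc0, ?_⟩
  rw [← act_map, hh, map_mul, Module.End.mul_apply, hfv, map_zero]

theorem isAlgebraic_end [Uncountable k] [Algebra.IsAlgebraic k D] (T : Module.End D (Fin n → D)) :
    IsAlgebraic k T := by
  classical
  have h1 : ∀ i : Fin n, ∃ c : k[X], c ≠ 0 ∧ (aeval T c) (Pi.single i (1 : D)) = 0 :=
    fun i => kill_vec T _
  choose c hc0 hc using h1
  refine ⟨∏ i, c i, prod_ne_zero_iff.mpr (fun i _ => hc0 i), ?_⟩
  apply LinearMap.pi_ext'
  intro i
  apply LinearMap.ext_ring
  simp only [LinearMap.comp_apply, LinearMap.single_apply, LinearMap.zero_apply]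
  rw [← mul_prod_erase univ c (mem_univ i), mul_comm, map_mul, Module.End.mul_apply, hc, map_zero]

end

end Vale.Agent.P199
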