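import Mathlib
import Vale.Agent.P199.MatAlg
import Vale.Agent.P199.Main

namespace Vale.Agent.P199

open Polynomial

universe u v w

/-- change of universe for the hypothesis -/
theorem fd_comm {k : Type u} [Field k]
    (hk : ∀ (B : Type u) [DivisionRing B] [Algebra k B] [FiniteDimensional k B] (x y : B),
      x * y = y * x)
    (B : Type v) [DivisionRing B] [Algebra k B] [FiniteDimensional k B] (x y : B) :
    x * y = y * x := by
  have hsm : Small.{u} B := by
    let e := (Module.finBasis k B).equivFun.toEquiv
    exact small_of_injective (β := Fin (Module.finrank k B) → k) e.injective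
  let e : Shrink.{u} B ≃ B := (equivShrink B).symm
  let _ : DivisionRing (Shrink.{u} B) := e.divisionRing
  let _ : Algebra k (Shrink.{u} B) := e.algebra k
  have e2 : Shrink.{u} B ≃ₐ[k] B := e.algEquiv k
  have hfd : FiniteDimensional k (Shrink.{u} B) := Module.Finite.equiv e2.symm.toLinearEquiv
  have h := hk (Shrink.{u} B) (e2.symm x) (e2.symm y)
  rw [← map_mul, ← map_mul] at h
  exact e2.symm.injective h

theorem comm_main {k : Type u} [Field k] [Uncountable k]
    (hk : ∀ (B : Type u) [DivisionRing B] [Algebra k B] [FiniteDimensional k B] (x y : B),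
      x * y = y * x)
    {D : Type v} [DivisionRing D] [Algebra k D] [Algebra.IsAlgebraic k D] (x y : D) :
    x * y = y * x := by
  by_contra hne
  let F := Subring.center D
  let algF : Algebra k F := ((algebraMap k D).codRestrict F (fun a => by
    rw [Subring.mem_center_iff]
    intro g
    exact (Algebra.commutes a g).symm)).toAlgebra
  have htow : IsScalarTower k F D := IsScalarTower.of_algebraMap_eq fun _ => rfl
  have hcen : Algebra.IsCentral F D := by
    constructor
    intro z hz
    rw [Subalgebra.mem_center_iff] at hz
    rw [Algebra.mem_bot]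
    exact ⟨⟨z, Subring.mem_center_iff.mpr hz⟩, rfl⟩
  have hnc : (⊥ : Subalgebra F D) ≠ ⊤ := by
    intro h
    have hx : x ∈ (⊥ : Subalgebra F D) := by rw [h]; trivial
    rw [Algebra.mem_bot] at hx
    obtain ⟨c, rfl⟩ := hx
    exact hne (Algebra.commutes c y)
  obtain ⟨n, B, hfd, hdom, a, b, hab⟩ := exists_fd (k := k) (F := F) (D := D)
    (fun n T => isAlgebraic_end T) hnc
  let _ := divisionRingOfFiniteDimensional k B
  exact hab (fd_comm hk B a b)

end Vale.Agent.P199
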