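import Mathlib
import Vale.Agent.P199.MatAlg
import Vale.Agent.P199.TensorSimple

namespace Vale.Agent.P199

open Polynomial TensorProduct

universe u v w

section center
variable {F D K : Type*} [Field F] [DivisionRing D] [Algebra F D] [Field K] [Algebra F K]

/-- the centre of `D ⊗ K` is `K` -/
theorem center_tensor [Algebra.IsCentral F D] (x : D ⊗[F] K)
    (hx : ∀ d : D, x * (d ⊗ₜ[F] (1 : K)) = (d ⊗ₜ[F] (1 : K)) * x) :
    ∃ c : K, x = (1 : D) ⊗ₜ[F] c := by
  classical
  let b := Module.Basis.ofVectorSpace F K
  let B := Algebra.TensorProduct.basis D b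
  have h1 : ∀ i, ∃ f : F, algebraMap F D f = B.repr x i := by
    intro i
    have h2 : B.repr x i ∈ Subalgebra.center F D := by
      rw [Subalgebra.mem_center_iff]
      intro d
      have h3 := basis_repr_mul b x d i
      have h4 := basis_repr_mul' b x d i
      rw [hx d] at h3
      exact h4.symm.trans h3
    have h5 := Algebra.IsCentral.out h2
    rw [Algebra.mem_bot] at h5
    exact h5
  choose f hf using h1
  refine ⟨∑ i ∈ (B.repr x).support, f i • b i, ?_⟩
  conv_lhs => rw [← B.linearCombination_repr x, Finsupp.linearCombination_apply, Finsupp.sum]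
  rw [TensorProduct.tmul_sum]
  apply Finset.sum_congr rfl
  intro i _
  have h6 : B i = (1 : D) ⊗ₜ[F] b i := Algebra.TensorProduct.basis_apply b i
  rw [h6, ← hf i, TensorProduct.smul_tmul', smul_eq_mul, mul_one, ← TensorProduct.smul_tmul,
    Algebra.algebraMap_eq_smul_one]

end center

section alg
variable {k F D K : Type*} [Field k] [Field F] [DivisionRing D] [Algebra k D] [Algebra F D]
  [Algebra k F] [IsScalarTower k F D] [Field K] [Algebra F K]

/-- right multiplication on `D ⊗ K` -/
noncomputable def rmulT (x : D ⊗[F] K) : Module.End D (D ⊗[F] K) where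
  toFun y := y * x
  map_add' a b := add_mul a b x
  map_smul' d y := by
    rw [RingHom.id_apply, smul_mul_assoc]

theorem aeval_rmulT (x : D ⊗[F] K) (p : k[X]) (y : D ⊗[F] K) :
    (aeval (rmulT x) p) y = y * aeval x p := by
  have hpow : ∀ (n : ℕ) (z : D ⊗[F] K), ((rmulT x) ^ n) z = z * x ^ n := by
    intro n
    induction n with
    | zero => intro z; simp
    | succ n ih =>
      intro z
      rw [pow_succ, Module.End.mul_apply, ih, pow_succ']
      change z * x * x ^ n = z * (x * x ^ n)
      rw [mul_assoc]
  induction p using Polynomial.induction_on' with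
  | add p q hp hq => rw [map_add, LinearMap.add_apply, hp, hq, map_add, mul_add]
  | monomial n a =>
    rw [aeval_monomial, aeval_monomial, Module.End.mul_apply, hpow, Module.algebraMap_end_apply,
      ← Algebra.smul_def, mul_smul_comm]

theorem isAlgebraic_tensor [Uncountable k] [Algebra.IsAlgebraic k D] [FiniteDimensional F K]
    (x : D ⊗[F] K) : IsAlgebraic k x := by
  have : Module.Finite D (D ⊗[F] K) := inferInstance
  let e : (D ⊗[F] K) ≃ₗ[D] (Fin (Module.finrank F K) → D) :=
    (Algebra.TensorProduct.basis D (Module.finBasis F K)).equivFun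
  have h1 : IsAlgebraic k (e.conjAlgEquiv k (rmulT x)) := isAlgebraic_end _
  have h2 : IsAlgebraic k (rmulT x) := by
    obtain ⟨p, hp0, hp⟩ := h1
    refine ⟨p, hp0, ?_⟩
    rw [aeval_algHom_apply] at hp
    exact (e.conjAlgEquiv k).injective (by rw [hp, map_zero])
  obtain ⟨p, hp0, hp⟩ := h2
  refine ⟨p, hp0, ?_⟩
  have h3 := aeval_rmulT x p 1
  rw [hp, one_mul] at h3
  exact h3.symm

end alg

end Vale.Agent.P199
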