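import Mathlib
import Vale.Agent.P199.Comm
import Vale.Agent.P199.Tensor2

namespace Vale.Agent.P199

open Polynomial TensorProduct

universe u v w

/-- a compositum of `F` and `k'` over `k` -/
theorem exists_compositum (k : Type u) (k' : Type v) (F : Type w) [Field k] [Field k'] [Field F]
    [Algebra k k'] [Algebra k F] [FiniteDimensional k k'] :
    ∃ (K : Type (max v w)) (_ : Field K) (_ : Algebra F K) (_ : FiniteDimensional F K) (ι : k' →+* K),
      (∀ c : k, ι (algebraMap k k' c) = algebraMap F K (algebraMap k F c)) ∧
      Module.finrank F K ≤ Module.finrank k k' := by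
  have : Nontrivial (F ⊗[k] k') := inferInstance
  obtain ⟨I, hI⟩ := Ideal.exists_maximal (F ⊗[k] k')
  let _ : Field ((F ⊗[k] k') ⧸ I) := Ideal.Quotient.field I
  have hfin : Module.Finite F (F ⊗[k] k') := inferInstance
  have hsurj : Function.Surjective (Ideal.Quotient.mkₐ F I).toLinearMap :=
    Ideal.Quotient.mkₐ_surjective F I
  refine ⟨(F ⊗[k] k') ⧸ I, inferInstance, inferInstance, Module.Finite.of_surjective _ hsurj,
    (Ideal.Quotient.mk I).comp (Algebra.TensorProduct.includeRight (R := k) (A := F) (B := k')).toRingHom,
    ?_, ?_⟩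
  · intro c
    change Ideal.Quotient.mk I ((1 : F) ⊗ₜ[k] (algebraMap k k' c)) =
      Ideal.Quotient.mk I ((algebraMap k F c) ⊗ₜ[k] (1 : k'))
    congr 1
    rw [Algebra.algebraMap_eq_smul_one, Algebra.algebraMap_eq_smul_one, TensorProduct.tmul_smul,
      TensorProduct.smul_tmul']
  · refine (LinearMap.finrank_le_finrank_of_surjective hsurj).trans ?_
    rw [Module.finrank_baseChange]

/-- the main descent statement -/
theorem descent {k : Type u} {k' : Type v} {F : Type*} {K : Type*} {D : Type*} [Field k] [Uncountable k]
    [Field k'] [Algebra k k']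
    (hk' : ∀ (B : Type v) [DivisionRing B] [Algebra k' B] [FiniteDimensional k' B] (x y : B),
      x * y = y * x)
    [Field F] [Field K] [Algebra F K] [FiniteDimensional F K] [DivisionRing D] [Algebra k F]
    [Algebra F D] [Algebra k D] [IsScalarTower k F D] [Algebra.IsCentral F D]
    [Algebra.IsAlgebraic k D] (ι : k' →+* K)
    (hι : ∀ c : k, ι (algebraMap k k' c) = algebraMap F K (algebraMap k F c)) :
    FiniteDimensional F D ∧ Module.finrank F D ≤ (Module.finrank F K) ^ 2 := by
  have hsimp : IsSimpleRing (K ⊗[F] D) := by
    have h1 : IsSimpleRing (D ⊗[F] K) := tensor_simple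
    exact IsSimpleRing.of_ringEquiv (Algebra.TensorProduct.comm F D K).toRingEquiv h1
  have hart : IsArtinianRing (K ⊗[F] D) := by
    have h1 : IsArtinianRing (D ⊗[F] K) := tensor_artinian
    exact (Algebra.TensorProduct.comm F D K).toRingEquiv.isArtinianRing
  obtain ⟨m, hm, D', _, _, ⟨e⟩⟩ :=
    IsSimpleRing.exists_algEquiv_matrix_divisionRing K (K ⊗[F] D)
  have : Uncountable k' := (algebraMap k k').injective.uncountable
  -- D' is algebraic over k'
  let _ : Algebra k' D' := Algebra.compHom D' ι
  have hmap : ∀ c : k', algebraMap k' D' c = algebraMap K D' (ι c) := fun c => rfl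
  have halg : Algebra.IsAlgebraic k' D' := by
    constructor
    intro x
    let s : Matrix (Fin m) (Fin m) D' := Matrix.scalar (Fin m) x
    let r : K ⊗[F] D := e.symm s
    let r' : D ⊗[F] K := (Algebra.TensorProduct.comm F K D) r
    obtain ⟨p, hp0, hp⟩ := isAlgebraic_tensor (k := k) r'
    refine ⟨p.map (algebraMap k k'), (Polynomial.map_ne_zero_iff (algebraMap k k').injective).mpr hp0, ?_⟩
    rw [aeval_def, eval₂_map]
    -- transport
    let g : (D ⊗[F] K) →+* Matrix (Fin m) (Fin m) D' :=
      (e : (K ⊗[F] D) →+* Matrix (Fin m) (Fin m) D').comp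
        ((Algebra.TensorProduct.comm F D K : (D ⊗[F] K) ≃ₐ[F] (K ⊗[F] D)) : (D ⊗[F] K) →+* (K ⊗[F] D))
    have hg : g r' = s := by
      change e ((Algebra.TensorProduct.comm F D K) ((Algebra.TensorProduct.comm F K D) r)) = s
      have h0 : (Algebra.TensorProduct.comm F D K) ((Algebra.TensorProduct.comm F K D) r) = r :=
        (Algebra.TensorProduct.comm F K D).symm_apply_apply r
      rw [h0]
      exact e.apply_symm_apply s
    have h1 : g (eval₂ (algebraMap k (D ⊗[F] K)) r' p) = 0 := by
      have : eval₂ (algebraMap k (D ⊗[F] K)) r' p = 0 := hp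
      rw [this, map_zero]
    rw [hom_eval₂, hg] at h1
    have h2 : (Matrix.scalar (Fin m)) (eval₂ ((algebraMap k' D').comp (algebraMap k k')) x p) = 0 := by
      rw [hom_eval₂]
      have h3 : (Matrix.scalar (Fin m)).comp ((algebraMap k' D').comp (algebraMap k k')) =
          g.comp (algebraMap k (D ⊗[F] K)) := by
        apply RingHom.ext
        intro c
        rw [RingHom.comp_apply, RingHom.comp_apply, RingHom.comp_apply, hmap, hι]
        change _ = e ((1 : K) ⊗ₜ[F] (algebraMap k D c))
        rw [IsScalarTower.algebraMap_apply k F D, Algebra.algebraMap_eq_smul_one (R := F) (A := D),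
          TensorProduct.tmul_smul, TensorProduct.smul_tmul', ← Algebra.algebraMap_eq_smul_one]
        have h4 : (algebraMap F K (algebraMap k F c)) ⊗ₜ[F] (1 : D) =
          algebraMap K (K ⊗[F] D) (algebraMap F K (algebraMap k F c)) := rfl
        rw [h4, AlgEquiv.commutes]
        rfl
      rw [h3]
      exact h1
    have h5 : (Matrix.scalar (Fin m)) (eval₂ ((algebraMap k' D').comp (algebraMap k k')) x p) =
        (Matrix.scalar (Fin m)) (0 : D') := by rw [h2, map_zero]
    exact Matrix.scalar_inj.mp h5
  have hcomm : ∀ x y : D', x * y = y * x := fun x y => comm_main hk' x y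
  have hsurj : Function.Surjective (algebraMap K D') := by
    intro x
    let s : Matrix (Fin m) (Fin m) D' := Matrix.scalar (Fin m) x
    have hs : ∀ t : Matrix (Fin m) (Fin m) D', s * t = t * s := by
      intro t
      exact Matrix.scalar_commute x (fun y => hcomm x y) t
    let r : K ⊗[F] D := e.symm s
    have hr : ∀ y, r * y = y * r := by
      intro y
      apply e.injective
      rw [map_mul, map_mul]
      have : e r = s := e.apply_symm_apply s
      rw [this, hs]
    obtain ⟨c, hc⟩ := center_tensor (F := F) ((Algebra.TensorProduct.comm F K D) r) (by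
      intro d
      have h1 : d ⊗ₜ[F] (1 : K) = (Algebra.TensorProduct.comm F K D) ((1 : K) ⊗ₜ[F] d) := rfl
      rw [h1, ← map_mul, ← map_mul, hr])
    refine ⟨c, ?_⟩
    have h2 : r = algebraMap K (K ⊗[F] D) c := by
      apply (Algebra.TensorProduct.comm F K D).injective
      rw [hc]
      rfl
    have h3 : s = algebraMap K _ c := by
      have : e r = s := e.apply_symm_apply s
      rw [← this, h2, AlgEquiv.commutes]
    have h4 : (Matrix.scalar (Fin m)) x = (Matrix.scalar (Fin m)) (algebraMap K D' c) := h3
    exact (Matrix.scalar_inj.mp h4).symm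
  have hD'fin : Module.Finite K D' := Module.Finite.of_surjective (Algebra.linearMap K D') hsurj
  have hD'1 : Module.finrank K D' ≤ 1 := by
    have := LinearMap.finrank_le_finrank_of_surjective (f := Algebra.linearMap K D') hsurj
    rwa [Module.finrank_self] at this
  have hRfin : Module.Finite K (K ⊗[F] D) := Module.Finite.equiv e.symm.toLinearEquiv
  have hRfinF : Module.Finite F (K ⊗[F] D) := Module.Finite.trans K _
  have hDfin : Module.Finite F D := by
    let f : D →ₗ[F] K ⊗[F] D := (Algebra.TensorProduct.includeRight (R := F) (A := K) (B := D)).toLinearMap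
    have hf : Function.Injective f := Algebra.TensorProduct.includeRight_injective (algebraMap F K).injective
    exact Module.Finite.of_injective f hf
  refine ⟨hDfin, ?_⟩
  have hrank : Module.finrank F D ≤ m ^ 2 := by
    have h1 : Module.finrank K (K ⊗[F] D) = Module.finrank F D := Module.finrank_baseChange
    have h2 : Module.finrank K (K ⊗[F] D) = Module.finrank K (Matrix (Fin m) (Fin m) D') :=
      e.toLinearEquiv.finrank_eq
    rw [← h1, h2, Module.finrank_matrix, Fintype.card_fin]
    calc m * m * Module.finrank K D' ≤ m * m * 1 := Nat.mul_le_mul_left _ hD'1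
      _ = m ^ 2 := by ring
  refine hrank.trans (Nat.pow_le_pow_left ?_ 2)
  -- `m` orthogonal idempotents
  let vv : Fin m → D ⊗[F] K := fun i => (Algebra.TensorProduct.comm F K D) (e.symm (Matrix.single i i 1))
  have hvv : ∀ i j, vv i * vv j = if i = j then vv i else 0 := by
    intro i j
    simp only [vv]
    rw [← map_mul, ← map_mul]
    split_ifs with h
    · subst h
      rw [Matrix.single_mul_single_same, mul_one]
    · rw [Matrix.single_mul_single_of_ne _ _ _ _ h, map_zero, map_zero]
  have hvv0 : ∀ i, vv i ≠ 0 := by
    intro i h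
    have h1 : (Matrix.single i i 1 : Matrix (Fin m) (Fin m) D') = 0 := by
      apply e.symm.injective
      apply (Algebra.TensorProduct.comm F K D).injective
      rw [map_zero, map_zero]
      exact h
    have h2 := congrFun (congrFun h1 i) i
    rw [Matrix.single_apply_same] at h2
    exact one_ne_zero h2
  have hli : LinearIndependent D vv := by
    rw [Fintype.linearIndependent_iff]
    intro g hg i
    by_contra hgi
    have h1 : (∑ j, g j • vv j) * vv i = 0 := by rw [hg, zero_mul]
    rw [Finset.sum_mul] at h1
    have h2 : ∀ j ∈ (Finset.univ : Finset (Fin m)), (g j • vv j) * vv i =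
        if j = i then g i • vv i else 0 := by
      intro j _
      rw [smul_mul_assoc, hvv]
      split_ifs with h
      · rw [h]
      · rw [smul_zero]
    rw [Finset.sum_congr rfl h2, Finset.sum_ite_eq' Finset.univ i, if_pos (Finset.mem_univ i)] at h1
    have h3 := congrArg (fun z => (g i)⁻¹ • z) h1
    simp only [smul_zero, smul_smul] at h3
    rw [inv_mul_cancel₀ hgi, one_smul] at h3
    exact hvv0 i h3
  have h1 := hli.fintype_card_le_finrank
  rw [Fintype.card_fin] at h1
  have h2 : Module.finrank D (D ⊗[F] K) = Module.finrank F K := by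
    rw [Module.finrank_eq_card_basis (Algebra.TensorProduct.basis D (Module.finBasis F K)),
      Fintype.card_fin]
  rwa [h2] at h1

end Vale.Agent.P199
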