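import Mathlib
import Vale.Agent.P199.Descent

namespace Vale.Agent.P199

open Polynomial

universe u v w

theorem loc_fin {k F D : Type*} [Field k] [Field F] [DivisionRing D] [Algebra k F] [Algebra F D]
    [Algebra k D] [IsScalarTower k F D] [Algebra.IsAlgebraic k F] [FiniteDimensional F D]
    (S : Set D) (hS : S.Finite) : Module.Finite k (Algebra.adjoin k S) := by
  classical
  let b := Module.finBasis F D
  let ρ : D →ₐ[k] Matrix (Fin (Module.finrank F D)) (Fin (Module.finrank F D)) F :=
    (Algebra.leftMulMatrix b).restrictScalars k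
  have hρ : Function.Injective ρ := Algebra.leftMulMatrix_injective b
  let E : Set F := ⋃ s ∈ S, Set.range (fun ij : Fin (Module.finrank F D) × Fin (Module.finrank F D) =>
    ρ s ij.1 ij.2)
  have hE : E.Finite := hS.biUnion (fun s _ => Set.finite_range _)
  let F₀ : Subalgebra k F := Algebra.adjoin k E
  have hF₀ : Module.Finite k F₀ := by
    have h1 : (Subalgebra.toSubmodule F₀).FG :=
      fg_adjoin_of_finite hE (fun x _ => (Algebra.IsAlgebraic.isAlgebraic (R := k) x).isIntegral)
    exact Module.Finite.iff_fg.mpr h1
  let ψ : Matrix (Fin (Module.finrank F D)) (Fin (Module.finrank F D)) F₀ →ₐ[k]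
    Matrix (Fin (Module.finrank F D)) (Fin (Module.finrank F D)) F := F₀.val.mapMatrix
  have hψ : Module.Finite k ψ.range := by
    exact Module.Finite.of_surjective ψ.rangeRestrict.toLinearMap ψ.rangeRestrict_surjective
  have hle : Algebra.adjoin k S ≤ ψ.range.comap ρ := by
    apply Algebra.adjoin_le
    intro s hs
    refine ⟨fun i j => ⟨ρ s i j, Algebra.subset_adjoin ?_⟩, ?_⟩
    · simp only [E, Set.mem_iUnion]
      exact ⟨s, hs, (i, j), rfl⟩
    · ext i j
      rfl
  let f : Algebra.adjoin k S →ₗ[k] ψ.range :=
    { toFun := fun x => ⟨ρ x, hle x.2⟩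
      map_add' := fun x y => by apply Subtype.ext; simp
      map_smul' := fun c x => by apply Subtype.ext; simp }
  apply Module.Finite.of_injective f
  intro x y hxy
  apply Subtype.ext
  apply hρ
  exact congrArg Subtype.val hxy

theorem final_part {k : Type u} [Field k] [Uncountable k] {k' : Type v} [Field k'] [Algebra k k']
    [FiniteDimensional k k']
    (hk' : ∀ (B : Type v) [DivisionRing B] [Algebra k' B] [FiniteDimensional k' B] (x y : B),
      x * y = y * x)
    (D : Type w) [DivisionRing D] [Algebra k D] [Algebra.IsAlgebraic k D] :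
    Module.Finite (Subring.center D) D ∧
      Module.finrank (Subring.center D) D ≤ (Module.finrank k k') ^ 2 ∧
      ∀ S : Finset D, Module.Finite k (Algebra.adjoin k (S : Set D)) := by
  let F := Subring.center D
  let algF : Algebra k F := ((algebraMap k D).codRestrict F (fun a => by
    rw [Subring.mem_center_iff]
    intro g
    exact (Algebra.commutes a g).symm)).toAlgebra
  have htow : IsScalarTower k F D := IsScalarTower.of_algebraMap_eq fun _ => rfl
  have hcen : Algebra.IsCentral F D := by
    constructor
    intro z hz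
    rw [Subalgebra.mem_center_iff] at hz
    rw [Algebra.mem_bot]
    exact ⟨⟨z, Subring.mem_center_iff.mpr hz⟩, rfl⟩
  have halgF : Algebra.IsAlgebraic k F := by
    constructor
    intro x
    have h1 : IsAlgebraic k (algebraMap F D x) := Algebra.IsAlgebraic.isAlgebraic _
    exact (isAlgebraic_algebraMap_iff (algebraMap F D).injective).mp h1
  obtain ⟨K, _, _, _, ι, hι, hle⟩ := exists_compositum k k' F
  obtain ⟨h1, h2⟩ := descent hk' (D := D) ι hι
  refine ⟨h1, h2.trans (Nat.pow_le_pow_left hle 2), ?_⟩
  intro S
  exact loc_fin (F := F) (S : Set D) S.finite_toSet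

end Vale.Agent.P199
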