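import Mathlib
import Vale.Agent.P199.LocFin

namespace Vale.Agent.P199

open Polynomial Cardinal

universe u v w

theorem countable_span {k : Type u} {D : Type v} [Field k] [DivisionRing D] [Algebra k D]
    (h : Algebra.FiniteType k D) : ∃ S : Set D, S.Countable ∧ Submodule.span k S = ⊤ := by
  obtain ⟨S, hS⟩ := h.out
  refine ⟨Submonoid.closure (S : Set D), ?_, ?_⟩
  · rw [Submonoid.closure_eq_mrange, MonoidHom.coe_mrange]
    have : Countable (FreeMonoid (S : Set D)) := inferInstanceAs (Countable (List (S : Set D)))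
    exact Set.countable_range _
  · rw [← Algebra.adjoin_eq_span, hS]
    rfl

/-- the resolvents of a transcendental element are independent -/
theorem resolvent_indep {k : Type u} {D : Type v} [Field k] [DivisionRing D] [Algebra k D] (a : D)
    (ha : ¬ IsAlgebraic k a) : LinearIndependent k (fun c : k => (a - algebraMap k D c)⁻¹) := by
  classical
  have ha' : ∀ p : k[X], aeval a p = 0 → p = 0 := by
    intro p hp
    by_contra h
    exact ha ⟨p, h, hp⟩
  rw [linearIndependent_iff']
  intro s g hg i hi
  have hne : ∀ c : k, a - algebraMap k D c ≠ 0 := by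
    intro c hc
    have h1 : aeval a (X - C c) = 0 := by rw [map_sub, aeval_X, aeval_C, hc]
    exact X_sub_C_ne_zero c (ha' _ h1)
  have h1 : ∀ c ∈ s, aeval a (∏ d ∈ s, (X - C d)) * (a - algebraMap k D c)⁻¹ =
      aeval a (∏ d ∈ s.erase c, (X - C d)) := by
    intro c hc
    rw [← Finset.mul_prod_erase s _ hc, mul_comm (X - C c), map_mul, mul_assoc, map_sub, aeval_X,
      aeval_C, mul_inv_cancel₀ (hne c), mul_one]
  have h2 : aeval a (∑ c ∈ s, C (g c) * ∏ d ∈ s.erase c, (X - C d)) = 0 := by
    have h3 := congrArg (fun z => aeval a (∏ d ∈ s, (X - C d)) * z) hg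
    simp only [mul_zero, Finset.mul_sum, mul_smul_comm] at h3
    rw [map_sum, ← h3]
    apply Finset.sum_congr rfl
    intro c hc
    rw [h1 c hc, map_mul, aeval_C, Algebra.smul_def]
  have h4 := congrArg (fun q => q.eval i) (ha' _ h2)
  simp only [eval_finsetSum, eval_mul, eval_C, eval_prod, eval_sub, eval_X, eval_zero] at h4
  rw [Finset.sum_eq_single i] at h4
  · rcases mul_eq_zero.mp h4 with h5 | h5
    · exact h5
    · rw [Finset.prod_eq_zero_iff] at h5
      obtain ⟨d, hd, hd0⟩ := h5
      rw [Finset.mem_erase] at hd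
      exact absurd (sub_eq_zero.mp hd0).symm hd.1
  · intro c hc hci
    rw [Finset.prod_eq_zero (i := i), mul_zero]
    · rw [Finset.mem_erase]; exact ⟨hci.symm, hi⟩
    · ring
  · intro h
    exact absurd hi h

theorem algebraic_of_fg {k : Type u} {D : Type v} [Field k] [Uncountable k] [DivisionRing D]
    [Algebra k D] (h : Algebra.FiniteType k D) : Algebra.IsAlgebraic k D := by
  constructor
  intro a
  by_contra ha
  obtain ⟨S, hS, hspan⟩ := countable_span h
  have h1 := (resolvent_indep a ha).cardinal_lift_le_rank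
  have h2 : Module.rank k D ≤ #S := by
    have := rank_span_le (R := k) S
    rw [hspan, rank_top] at this
    exact this
  have h3 : #S ≤ ℵ₀ := Cardinal.le_aleph0_iff_set_countable.mpr hS
  have h4 : ℵ₀ < #k := Cardinal.aleph0_lt_mk_iff.mpr inferInstance
  have h5 : Cardinal.lift.{v} #k ≤ ℵ₀ := by
    refine h1.trans ?_
    rw [Cardinal.lift_le_aleph0]
    exact h2.trans h3
  rw [Cardinal.lift_le_aleph0] at h5
  exact absurd h5 (not_le.mpr h4)

end Vale.Agent.P199
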