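import Mathlib
import Vale.Agent.P199.Fg

namespace Vale.Agent.P199

open TensorProduct

/-- the subalgebra generated by two commuting finite subalgebras -/
theorem exists_join {k F A : Type*} [Field k] [Field F] [Ring A] [Algebra k A] [Algebra F A]
    [Algebra k F] [IsScalarTower k F A] (E : Subalgebra F A) (hE : IsField E) (hEf : Module.Finite F E)
    (B : Subalgebra k A) (hB : Module.Finite k B) (hcomm : ∀ x ∈ B, ∀ e ∈ E, x * e = e * x) :
    ∃ B' : Subalgebra F A, Module.Finite F B' ∧ (∀ x ∈ B, x ∈ B') ∧ (∀ e ∈ E, e ∈ B') ∧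
      (∀ e ∈ E, ∀ b ∈ B', e * b = b * e) := by
  have htow : IsScalarTower k F E := inferInstance
  let f : E ⊗[k] B →ₐ[F] A := Algebra.TensorProduct.lift E.val B.val
    (fun e b => (hcomm b b.2 e e.2).symm)
  have hf : ∀ (a : E) (b : B), f (a ⊗ₜ[k] b) = (a : A) * (b : A) := fun a b => rfl
  have hfin : Module.Finite F (E ⊗[k] B) := by
    have h1 : Module.Finite E (E ⊗[k] B) := inferInstance
    exact Module.Finite.trans E _
  refine ⟨f.range, ?_, ?_, ?_, ?_⟩
  · exact Module.Finite.of_surjective f.rangeRestrict.toLinearMap f.rangeRestrict_surjective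
  · intro x hx
    refine ⟨(1 : E) ⊗ₜ[k] (⟨x, hx⟩ : B), ?_⟩
    change f _ = x
    rw [hf]
    exact one_mul x
  · intro e he
    refine ⟨(⟨e, he⟩ : E) ⊗ₜ[k] (1 : B), ?_⟩
    change f _ = e
    rw [hf]
    exact mul_one e
  · rintro e he _ ⟨y, rfl⟩
    induction y using TensorProduct.induction_on with
    | zero => simp
    | tmul a b =>
      have h1 : f (a ⊗ₜ[k] b) = (a : A) * b := hf a b
      have h2 : e * (a : A) = a * e := by
        have h3 := hE.mul_comm ⟨e, he⟩ a
        exact congrArg Subtype.val h3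
      change e * f (a ⊗ₜ[k] b) = f (a ⊗ₜ[k] b) * e
      rw [h1, ← mul_assoc, h2, mul_assoc, mul_assoc, hcomm b b.2 e he]
    | add x y hx hy =>
      have hx' : e * f x = f x * e := hx
      have hy' : e * f y = f y * e := hy
      change e * f (x + y) = f (x + y) * e
      rw [map_add, mul_add, add_mul, hx', hy']

end Vale.Agent.P199
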